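import Vale.Agent.P032.S5.H225.Germ
import Vale.Agent.P032.S5.H122.Cnt5

/-!
# P032: the closed antipodal rule at two-pair points (wild)

`z` a two-pair point with the pairs `ab | cd`, `v ∈ S(z)` a point of any order with the colours
`c, d`: no exact `ab`-arcs of `S(z)` accumulate at the antipode `2z - v`.
-/

open Set Filter Topology Metric

noncomputable section

namespace Vale.Agent.P032.Six

open Vale.Agent.P032.S5.H767 Vale.Agent.P032.S5.H122

variable {U : Fin 6 → Set ℂ} {T : ℂ → Set (Fin 6)} {z : ℂ} {a b c d : Fin 6}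

/-- a colour which is present on `S(z)` near `g` is absent off the line at `S(g)` -/
theorem Irr.line_free98 (h : Irr U T) {z g v : ℂ} {t : Fin 6} (hg : dist g z = 1)
    (hJ : ∀ᶠ q in 𝓝[sphere z 1] g, t ∈ T q) (hv : dist g v = 1) (h1 : v ≠ z)
    (h2 : v + z ≠ 2 * g) : t ∉ Pal U v := line_free h hg hJ hv h1 h2

/-- **closed antipodal rule** -/
theorem Irr.anti_clo (h : Irr U T) (hz : DPt T z a b c d) {v : ℂ} (hv : dist v z = 1)
    (hc : c ∈ T v) (hd : d ∈ T v) : 2 * z - v ∉ closure (Ex T z {a, b}) := by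
  intro hcl
  have hzv : dist z v = 1 := by rw [dist_comm]; exact hv
  -- the antipode in the angle coordinate
  obtain ⟨θ, hθ⟩ := exists_cis (u := z - v) (by rw [← dist_eq_norm]; exact hzv)
  set u0 : ℝ := θ / (Real.pi / 3) with hu0
  have hpi : (0 : ℝ) < Real.pi / 3 := by positivity
  have e0 : u0 * (Real.pi / 3) = θ := by rw [hu0]; field_simp
  have hpt : ∀ w : ℝ, pt z w = z + (z - v) * cis ((w - u0) * (Real.pi / 3)) := by
    intro w
    unfold pt
    rw [hθ, ← cis_add]
    congr 2
    rw [sub_mul, e0]; ring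
  have hpt0 : pt z u0 = 2 * z - v := by
    unfold pt
    rw [e0, ← hθ]; ring
  -- the germ of `S(v)` at `z`
  have hgerm : ∀ᶠ w in 𝓝[≠] u0, ∃ p r : Fin 6, (p = a ∨ p = b) ∧ (r = c ∨ r = d) ∧
      T (v + (z - v) * cis ((w - u0) * (Real.pi / 3))) ⊆ {p, r} := by
    have key : ∀ p r p' r' : Fin 6, (p = a ∨ p = b) → (r = c ∨ r = d) → (p' = a ∨ p' = b) →
        (r' = c ∨ r' = d) → Gm T v z p r p' r' →
        ∀ᶠ w in 𝓝[≠] u0, ∃ p r : Fin 6, (p = a ∨ p = b) ∧ (r = c ∨ r = d) ∧
          T (v + (z - v) * cis ((w - u0) * (Real.pi / 3))) ⊆ {p, r} := by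
      intro p r p' r' hp hr hp' hr' hG
      have hR : Tendsto (fun w : ℝ => (w - u0) * (Real.pi / 3)) (𝓝[>] u0) (𝓝[>] 0) := by
        refine tendsto_nhdsWithin_iff.2 ⟨?_, ?_⟩
        · have : Continuous fun w : ℝ => (w - u0) * (Real.pi / 3) := by fun_prop
          have h2 := this.tendsto u0
          simp only [sub_self, zero_mul] at h2
          exact h2.mono_left nhdsWithin_le_nhds
        · filter_upwards [self_mem_nhdsWithin] with w hw
          have hw : u0 < w := hw
          show 0 < (w - u0) * (Real.pi / 3)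
          exact mul_pos (by linarith) hpi
      have hL : Tendsto (fun w : ℝ => (u0 - w) * (Real.pi / 3)) (𝓝[<] u0) (𝓝[>] 0) := by
        refine tendsto_nhdsWithin_iff.2 ⟨?_, ?_⟩
        · have : Continuous fun w : ℝ => (u0 - w) * (Real.pi / 3) := by fun_prop
          have h2 := this.tendsto u0
          simp only [sub_self, zero_mul] at h2
          exact h2.mono_left nhdsWithin_le_nhds
        · filter_upwards [self_mem_nhdsWithin] with w hw
          have hw : w < u0 := hw
          show 0 < (u0 - w) * (Real.pi / 3)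
          exact mul_pos (by linarith) hpi
      rw [← nhdsLT_sup_nhdsGT, eventually_sup]
      constructor
      · filter_upwards [hL.eventually hG.2] with w hw
        refine ⟨p', r', hp', hr', ?_⟩
        have e : hb v z (-1) ((u0 - w) * (Real.pi / 3)) =
            v + (z - v) * cis ((w - u0) * (Real.pi / 3)) := by
          unfold hb; congr 3; ring
        rw [e] at hw
        exact hw
      · filter_upwards [hR.eventually hG.1] with w hw
        refine ⟨p, r, hp, hr, ?_⟩
        have e : hb v z 1 ((w - u0) * (Real.pi / 3)) =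
            v + (z - v) * cis ((w - u0) * (Real.pi / 3)) := by
          unfold hb; congr 3; ring
        rw [e] at hw
        exact hw
    rcases h.germ_branch hz hzv with hG | hG | hG | hG
    · exact key _ _ _ _ (Or.inl rfl) (Or.inl rfl) (Or.inr rfl) (Or.inr rfl) hG
    · exact key _ _ _ _ (Or.inl rfl) (Or.inr rfl) (Or.inr rfl) (Or.inl rfl) hG
    · exact key _ _ _ _ (Or.inr rfl) (Or.inl rfl) (Or.inl rfl) (Or.inr rfl) hG
    · exact key _ _ _ _ (Or.inr rfl) (Or.inr rfl) (Or.inl rfl) (Or.inl rfl) hG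
  -- near the antipode there are no exact points
  have hno : ∀ᶠ w in 𝓝[≠] u0, pt z w ∉ Ex T z {a, b} := by
    have h6 : ∀ᶠ w in 𝓝[≠] u0, |w - u0| < 1 := by
      have : ∀ᶠ w in 𝓝 u0, w ∈ ball u0 1 := ball_mem_nhds u0 one_pos
      filter_upwards [mem_nhdsWithin_of_mem_nhds this] with w hw
      rwa [mem_ball, Real.dist_eq] at hw
    filter_upwards [hgerm, h6, self_mem_nhdsWithin] with w hw hw6 hne hE
    have hne : w ≠ u0 := hne
    obtain ⟨p, r, hp, hr, hsub⟩ := hw
    set x := v + (z - v) * cis ((w - u0) * (Real.pi / 3)) with hx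
    have hxg : x = v + pt z w - z := by rw [hx, hpt w]; ring
    have hxv : dist x v = 1 := by
      rw [hxg, dist_eq_norm, show v + pt z w - z - v = pt z w - z by ring, ← dist_eq_norm]
      exact dist_pt z w
    have hgx : dist (pt z w) x = 1 := by
      rw [hxg, dist_eq_norm, show pt z w - (v + pt z w - z) = z - v by ring, ← dist_eq_norm]
      exact hzv
    have hxz : x ≠ z := by
      intro h1
      rw [hxg] at h1
      have h2 : pt z w = pt z u0 := by rw [hpt0]; linear_combination h1
      obtain ⟨n, hn⟩ := pt_eq_iff h2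
      have h3 : |6 * (n : ℝ)| < 1 := by rw [show 6 * (n : ℝ) = w - u0 by linarith]; exact hw6
      have h4 : |(n : ℝ)| < 1 := by
        rw [abs_mul, abs_of_pos (by norm_num : (0 : ℝ) < 6)] at h3
        linarith [abs_nonneg (n : ℝ)]
      have h5 : |n| < 1 := by exact_mod_cast h4
      have h7 : n = 0 := Int.abs_lt_one_iff.1 h5
      apply hne
      rw [hn, h7]; simp
    have hxz2 : x + z ≠ 2 * pt z w := by
      intro h1
      rw [hxg] at h1
      have h2 : pt z w = pt z (u0 + 3) := by
        rw [pt_three, hpt0]; linear_combination -h1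
      obtain ⟨n, hn⟩ := pt_eq_iff h2
      have h3 : |3 + 6 * (n : ℝ)| < 1 := by
        rw [show 3 + 6 * (n : ℝ) = w - u0 by linarith]; exact hw6
      rw [abs_lt] at h3
      have h4 : (-1 : ℝ) < n := by linarith
      have h5 : (n : ℝ) < 0 := by linarith
      have h7 : (-1 : ℤ) < n := by exact_mod_cast h4
      have h8 : n < 0 := by exact_mod_cast h5
      omega
    have hfree : ∀ t ∈ ({a, b} : Set (Fin 6)), t ∉ T x := by
      intro t ht htx
      refine line_free h (dist_pt z w) (t := t) ?_ hgx hxz hxz2 (h.sub _ htx)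
      filter_upwards [hE.2] with q hq
      rw [hq]; exact ht
    refine h.not_single (z := v) (w := x) (i := r) ?_ hxv ?_
    · rcases hr with rfl | rfl
      · exact h.sub v hc
      · exact h.sub v hd
    · intro i hi
      rcases hsub hi with h1 | h1
      · exact absurd hi (hfree i (by rcases hp with h2 | h2 <;> rw [h1, h2] <;> simp))
      · exact h1
  -- the closure
  have hno' : ∀ᶠ w in 𝓝 u0, pt z w ∉ Ex T z {a, b} := by
    have h0 : pt z u0 ∉ Ex T z {a, b} := by
      intro hE
      have h1 : ∀ᶠ w in 𝓝 u0, pt z w ∈ Ex T z {a, b} := ev_pt z (ex_open hE)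
      obtain ⟨w, hw1, hw2⟩ := (hno.and (mem_nhdsWithin_of_mem_nhds h1)).exists
      exact hw1 hw2
    rw [eventually_nhdsWithin_iff] at hno
    filter_upwards [hno] with w hw
    by_cases hwu : w = u0
    · rw [hwu]; exact h0
    · exact hw hwu
  have hfin : ∀ᶠ q in 𝓝[sphere z 1] (pt z u0), q ∉ Ex T z {a, b} := ev_circle z hno'
  rw [hpt0] at hfin
  rw [mem_closure_iff_nhds] at hcl
  obtain ⟨V, hV, hVs⟩ := mem_nhdsWithin_iff_exists_mem_nhds_inter.1 hfin
  obtain ⟨q, hqV, hqE⟩ := hcl V hV
  exact hVs ⟨hqV, hqE.1⟩ hqE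

end Vale.Agent.P032.Six
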