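import Vale.Agent.P032.H79.XA
import Vale.Agent.P032.H353.Corner
import Vale.Agent.P032.H538.State1
import Vale.Agent.P032.H800.XC

/-!
# P032: points whose two pairs both have plain ends, degree at most two

`Md98 T V a b c d e f` : `V` is a two-pair point with the pairs `ab | cd`, both with plain ends, all of
them with the colour `e`; `f` is the other free colour.  Rows (world `XC`):
* `RowTri98` : no unit triangle with such a point and two points of order at least four;
* `RowHarm98` : no harmless point on the circle of such a point;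
* `RowK98`, `RowE98`, `RowH98` : no neighbour of the type `(ac | df)`, `(ac | ef)`, `(ab | ef)`.
`List98 T` : the points of order at least four on the circle of such a point are not harmless in the
sense of `Harm353`.

`list98` : `List98` from `RowTri98`, `RowHarm98`.
`rowMC98` : `RowMC` from the rows.
-/

open Set Filter Topology Metric

noncomputable section

namespace Vale.Agent.P032.H98

open Vale.Agent.P032.Six Vale.Agent.P032.S5.H767 Vale.Agent.P032.H383 Vale.Agent.P032.H800

variable {U : Fin 6 → Set ℂ} {T : ℂ → Set (Fin 6)} {V y : ℂ} {a b c d e f g : Fin 6}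

/-- both pairs have plain ends, all of them with the colour `e` -/
structure Md98 (T : ℂ → Set (Fin 6)) (V : ℂ) (a b c d e f : Fin 6) : Prop where
  dpt : DPt T V a b c d
  nd : [a, b, c, d, e, f].Nodup
  exA : ∃ p ∈ closure (Ex T V {a, b}), T p = {a, b, e}
  exC : ∃ p ∈ closure (Ex T V {c, d}), T p = {c, d, e}
  hA : ∀ p ∈ closure (Ex T V {a, b}), (T p).ncard ≤ 3 → T p = {a, b} ∨ T p = {a, b, e}
  hC : ∀ p ∈ closure (Ex T V {c, d}), (T p).ncard ≤ 3 → T p = {c, d} ∨ T p = {c, d, e}

theorem nd_swap12 (nd : [a, b, c, d, e, f].Nodup) : [b, a, c, d, e, f].Nodup := by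
  simp only [List.nodup_cons, List.mem_cons, List.not_mem_nil, or_false, not_or, List.nodup_nil,
    and_true, not_false_eq_true] at nd ⊢
  obtain ⟨⟨ab, ac, ad, ae, af⟩, ⟨bc, bd, be, bf⟩, ⟨cd, ce, cf⟩, ⟨de, df⟩, ef⟩ := nd
  exact ⟨⟨Ne.symm ab, bc, bd, be, bf⟩, ⟨ac, ad, ae, af⟩, ⟨cd, ce, cf⟩, ⟨de, df⟩, ef⟩

theorem nd_swap34 (nd : [a, b, c, d, e, f].Nodup) : [a, b, d, c, e, f].Nodup := by
  simp only [List.nodup_cons, List.mem_cons, List.not_mem_nil, or_false, not_or, List.nodup_nil,
    and_true, not_false_eq_true] at nd ⊢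
  obtain ⟨⟨ab, ac, ad, ae, af⟩, ⟨bc, bd, be, bf⟩, ⟨cd, ce, cf⟩, ⟨de, df⟩, ef⟩ := nd
  exact ⟨⟨ab, ad, ac, ae, af⟩, ⟨bd, bc, be, bf⟩, ⟨Ne.symm cd, de, df⟩, ⟨ce, cf⟩, ef⟩

theorem nd_swap (nd : [a, b, c, d, e, f].Nodup) : [c, d, a, b, e, f].Nodup := by
  simp only [List.nodup_cons, List.mem_cons, List.not_mem_nil, or_false, not_or, List.nodup_nil,
    and_true, not_false_eq_true] at nd ⊢
  obtain ⟨⟨ab, ac, ad, ae, af⟩, ⟨bc, bd, be, bf⟩, ⟨cd, ce, cf⟩, ⟨de, df⟩, ef⟩ := nd
  exact ⟨⟨cd, Ne.symm ac, Ne.symm bc, ce, cf⟩, ⟨Ne.symm ad, Ne.symm bd, de, df⟩, ⟨ab, ae, af⟩,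
    ⟨be, bf⟩, ef⟩

theorem insert_swap (x y z : Fin 6) : ({x, y, z} : Set (Fin 6)) = {y, x, z} := by
  ext i; simp only [mem_insert_iff, mem_singleton_iff]; tauto

namespace Md98

theorem swap12 (M : Md98 T V a b c d e f) : Md98 T V b a c d e f where
  dpt := M.dpt.swap12
  nd := nd_swap12 M.nd
  exA := by rw [Set.pair_comm b a, insert_swap b a e]; exact M.exA
  exC := M.exC
  hA := by rw [Set.pair_comm b a, insert_swap b a e]; exact M.hA
  hC := M.hC

theorem swap34 (M : Md98 T V a b c d e f) : Md98 T V a b d c e f where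
  dpt := M.dpt.swap34
  nd := nd_swap34 M.nd
  exA := M.exA
  exC := by rw [Set.pair_comm d c, insert_swap d c e]; exact M.exC
  hA := M.hA
  hC := by rw [Set.pair_comm d c, insert_swap d c e]; exact M.hC

theorem swap (M : Md98 T V a b c d e f) : Md98 T V c d a b e f where
  dpt := M.dpt.swap
  nd := nd_swap M.nd
  exA := M.exC
  exC := M.exA
  hA := M.hC
  hC := M.hA

end Md98

/-- the list: the points of order at least four are events -/
def List98 (T : ℂ → Set (Fin 6)) : Prop :=
  ∀ V a b c d e f, Md98 T V a b c d e f → ∀ y, dist y V = 1 → 4 ≤ (T y).ncard →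
    T y ≠ T V ∧ ¬ Harm353 T e f y

/-- row T: unit triangles -/
def RowTri98 : Prop := ∀ (U : Fin 6 → Set ℂ) (T : ℂ → Set (Fin 6)), XC U T →
  ∀ V a b c d e f, Md98 T V a b c d e f → ∀ y1 y2, dist y1 V = 1 → dist y2 V = 1 →
    dist y1 y2 = 1 → 4 ≤ (T y1).ncard → 4 ≤ (T y2).ncard → False

/-- row HA: harmless points -/
def RowHarm98 : Prop := ∀ (U : Fin 6 → Set ℂ) (T : ℂ → Set (Fin 6)), XC U T →
  ∀ V a b c d e f, Md98 T V a b c d e f → ∀ y, dist y V = 1 → ∀ A, ¬ Six.Harm T y A

/-- row K -/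
def RowK98 : Prop := ∀ (U : Fin 6 → Set ℂ) (T : ℂ → Set (Fin 6)), XC U T → List98 T →
  ∀ V a b c d e f, Md98 T V a b c d e f → ∀ y, dist y V = 1 → ¬ DPt T y a c d f

/-- row E -/
def RowE98 : Prop := ∀ (U : Fin 6 → Set ℂ) (T : ℂ → Set (Fin 6)), XC U T → List98 T →
  ∀ V a b c d e f, Md98 T V a b c d e f → ∀ y, dist y V = 1 → ¬ DPt T y a c e f

/-- row H -/
def RowH98 : Prop := ∀ (U : Fin 6 → Set ℂ) (T : ℂ → Set (Fin 6)), XC U T → List98 T →
  ∀ V a b c d e f, Md98 T V a b c d e f → ∀ y, dist y V = 1 → ¬ DPt T y a b e f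

/-- two events -/
theorem two98 (X : XC U T) (hT : RowTri98) (hH : RowHarm98) (M : Md98 T V a b c d e f) :
    ∃ y1 y2, y1 ≠ y2 ∧ (dist y1 V = 1 ∧ 4 ≤ (T y1).ncard ∧ T y1 ≠ T V ∧ ¬ Harm353 T e f y1) ∧
      dist y2 V = 1 ∧ 4 ≤ (T y2).ncard ∧ T y2 ≠ T V ∧ ¬ Harm353 T e f y2 := by
  have hfz : f ∉ ({a, b, e} : Set (Fin 6)) ∧ f ∉ ({c, d, e} : Set (Fin 6)) ∧
      f ∉ ({a, b} : Set (Fin 6)) ∧ f ∉ ({c, d} : Set (Fin 6)) := by
    obtain ⟨⟨ab, ac, ad, ae, af⟩, ⟨bc, bd, be, bf⟩, ⟨cd, ce, cf⟩, ⟨de, df⟩, ef⟩ := nd_all353 M.nd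
    simp only [mem_insert_iff, mem_singleton_iff, not_or]
    exact ⟨⟨Ne.symm af, Ne.symm bf, Ne.symm ef⟩, ⟨Ne.symm cf, Ne.symm df, Ne.symm ef⟩,
      ⟨Ne.symm af, Ne.symm bf⟩, ⟨Ne.symm cf, Ne.symm df⟩⟩
  obtain ⟨y1, y2, hne, h1, h2⟩ := X.df.irr.two_ends353 M.dpt M.nd
    (fun y hy => by
      by_cases h3 : (T y).ncard ≤ 3
      · exact Or.inl h3
      · rcases X.df.harm_or (z := y) (by omega) with ⟨A, hA⟩ | ⟨p, q, r, s, hD⟩
        · exact (hH U T X V a b c d e f M y hy A hA).elim
        · exact Or.inr (Or.inr ⟨_, _, PQ738.of_dpt X.df.irr hD⟩))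
    (fun y p hy hp hpy h3 _ => by
      by_contra hcon
      push Not at hcon
      exact hT U T X V a b c d e f M p y hp hy hpy (by omega) (by omega))
  have key : ∀ y, End353 T V a b c d e f y →
      dist y V = 1 ∧ 4 ≤ (T y).ncard ∧ T y ≠ T V ∧ ¬ Harm353 T e f y := by
    intro y hE
    obtain ⟨k1, k2, ⟨k3, k4, k5 | k5⟩ | ⟨k3, k4⟩⟩ := hE
    · exfalso
      rcases M.hA y k5 k3 with h5 | h5 <;> rw [h5] at k4
      · exact hfz.2.2.1 k4
      · exact hfz.1 k4
    · exfalso
      rcases M.hC y k5 k3 with h5 | h5 <;> rw [h5] at k4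
      · exact hfz.2.2.2 k4
      · exact hfz.2.1 k4
    · exact ⟨k1, by omega, k2, k4⟩
  exact ⟨y1, y2, hne, key y1 h1, key y2 h2⟩

/-- **the list** -/
theorem list98 (X : XC U T) (hT : RowTri98) (hH : RowHarm98) : List98 T := by
  intro V a b c d e f M y hy h4
  have hV4 : 4 ≤ (T V).ncard := M.dpt.ncard.ge
  obtain ⟨y1, y2, hne, ⟨a1, a2, a3, a4⟩, b1, b2, b3, b4⟩ := two98 X hT hH M
  rcases X.n3 V y y1 y2 hV4 hy a1 b1 h4 a2 b2 with h5 | h5 | h5
  · exact h5 ▸ ⟨a3, a4⟩
  · exact h5 ▸ ⟨b3, b4⟩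
  · exact absurd h5 hne

/-- a neighbour has no pair of `V`, if its other pair has a colour of `V` -/
theorem no_common98 (h : Irr U T) (hV : DPt T V a b c d) (hy : dist y V = 1)
    (hD : DPt T y c d a g) : False := by
  have hcV : c ∈ T V := by rw [hV.pal]; simp
  have hdV : d ∈ T V := by rw [hV.pal]; simp
  have haV : a ∈ T V := by rw [hV.pal]; simp
  have key : ∀ (x : Fin 6) (τ : ℝ), (x = c ∨ x = d) →
      (∀ᶠ t : ℝ in 𝓝[>] 0, T (hb V y τ t) ⊆ {x, a}) → False := by
    intro x τ hx h1
    have hxV : x ∈ T V := by rcases hx with rfl | rfl <;> assumption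
    have hxa : x ≠ a := by
      rcases hx with rfl | rfl
      · exact hV.ac.symm
      · exact hV.ad.symm
    obtain ⟨q, hq, hT⟩ := hb_exists hy (h.hb_exact hy h1 (h.sub _ hxV) (h.sub _ haV))
    obtain ⟨hA1, hA2⟩ := h.arc_of_eq hxa hxV haV hq hT
    rcases h.twoPairs hV q hq (by rw [hT]; exact hA2) (by
      rw [hT]
      rintro i (rfl | hi)
      · exact hxV
      · rw [mem_singleton_iff] at hi; rw [hi]; exact haV) with h5 | h5
    · rw [hT] at h5
      have h6 : x ∈ ({a, b} : Set (Fin 6)) := h5 ▸ Or.inl rfl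
      rcases h6 with h6 | h6
      · exact hxa h6
      · rw [mem_singleton_iff] at h6
        rcases hx with h7 | h7
        · exact hV.bc (h6.symm.trans h7)
        · exact hV.bd (h6.symm.trans h7)
    · rw [hT] at h5
      have h6 : a ∈ ({c, d} : Set (Fin 6)) := h5 ▸ Or.inr rfl
      rcases h6 with h6 | h6
      · exact hV.ac h6
      · exact hV.ad h6
  rcases h.germ_branch hD hy with hG | hG | hG | hG
  · exact key c 1 (Or.inl rfl) hG.1
  · exact key d (-1) (Or.inr rfl) hG.2
  · exact key d 1 (Or.inr rfl) hG.1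
  · exact key c (-1) (Or.inl rfl) hG.2

/-- all the colours -/
theorem Md98.all (X : XC U T) (M : Md98 T V a b c d e f) (i : Fin 6) :
    i = a ∨ i = b ∨ i = c ∨ i = d ∨ i = e ∨ i = f :=
  Ctr.all ⟨X.df.irr, M.dpt.pal, M.nd, fun y hy hloc hsub => X.df.irr.twoPairs M.dpt y hy hloc hsub⟩ i

/-- row K, one colour fixed -/
theorem rowK_aux98 (hK : RowK98) (X : XC U T) (L : List98 T) (M : Md98 T V a b c d e f)
    (hy : dist y V = 1) {p q : Fin 6} (hD : DPt T y p q d f) (hp : p = a ∨ p = b ∨ p = c)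
    (hq : q = a ∨ q = b ∨ q = c) : False := by
  have k1 := hK U T X L V a b c d e f M y hy
  have k2 := hK U T X L V b a c d e f M.swap12 y hy
  rcases hp with rfl | rfl | rfl <;> rcases hq with rfl | rfl | rfl
  · exact hD.ab rfl
  · exact no_common98 X.df.irr M.dpt.swap.swap12 hy hD
  · exact k1 hD
  · exact no_common98 X.df.irr M.dpt.swap.swap12 hy hD.swap12
  · exact hD.ab rfl
  · exact k2 hD
  · exact k1 hD.swap12
  · exact k2 hD.swap12
  · exact hD.ab rfl

/-- row K: all the neighbours without the colour `e` -/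
theorem rowK_all98 (hK : RowK98) (X : XC U T) (L : List98 T) (M : Md98 T V a b c d e f)
    (hy : dist y V = 1) {p q r : Fin 6} (hD : DPt T y p q r f) (he : e ∉ T y) : False := by
  have hpT : p ∈ T y := by rw [hD.pal]; simp
  have hqT : q ∈ T y := by rw [hD.pal]; simp
  have hrT : r ∈ T y := by rw [hD.pal]; simp
  have hpe : p ≠ e := fun h => he (h ▸ hpT)
  have hqe : q ≠ e := fun h => he (h ▸ hqT)
  have hre : r ≠ e := fun h => he (h ▸ hrT)
  have hpf : p ≠ f := hD.ad
  have hqf : q ≠ f := hD.bd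
  have hrf : r ≠ f := hD.cd
  have hpr : p ≠ r := hD.ac
  have hqr : q ≠ r := hD.bc
  rcases M.all X r with h | h | h | h | h | h
  · subst h
    refine rowK_aux98 hK X L M.swap.swap34 hy hD ?_ ?_
    · rcases M.all X p with h | h | h | h | h | h
      · exact absurd h hpr
      · exact Or.inr (Or.inr h)
      · exact Or.inl h
      · exact Or.inr (Or.inl h)
      · exact absurd h hpe
      · exact absurd h hpf
    · rcases M.all X q with h | h | h | h | h | h
      · exact absurd h hqr
      · exact Or.inr (Or.inr h)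
      · exact Or.inl h
      · exact Or.inr (Or.inl h)
      · exact absurd h hqe
      · exact absurd h hqf
  · subst h
    refine rowK_aux98 hK X L M.swap hy hD ?_ ?_
    · rcases M.all X p with h | h | h | h | h | h
      · exact Or.inr (Or.inr h)
      · exact absurd h hpr
      · exact Or.inl h
      · exact Or.inr (Or.inl h)
      · exact absurd h hpe
      · exact absurd h hpf
    · rcases M.all X q with h | h | h | h | h | h
      · exact Or.inr (Or.inr h)
      · exact absurd h hqr
      · exact Or.inl h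
      · exact Or.inr (Or.inl h)
      · exact absurd h hqe
      · exact absurd h hqf
  · subst h
    refine rowK_aux98 hK X L M.swap34 hy hD ?_ ?_
    · rcases M.all X p with h | h | h | h | h | h
      · exact Or.inl h
      · exact Or.inr (Or.inl h)
      · exact absurd h hpr
      · exact Or.inr (Or.inr h)
      · exact absurd h hpe
      · exact absurd h hpf
    · rcases M.all X q with h | h | h | h | h | h
      · exact Or.inl h
      · exact Or.inr (Or.inl h)
      · exact absurd h hqr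
      · exact Or.inr (Or.inr h)
      · exact absurd h hqe
      · exact absurd h hqf
  · subst h
    refine rowK_aux98 hK X L M hy hD ?_ ?_
    · rcases M.all X p with h | h | h | h | h | h
      · exact Or.inl h
      · exact Or.inr (Or.inl h)
      · exact Or.inr (Or.inr h)
      · exact absurd h hpr
      · exact absurd h hpe
      · exact absurd h hpf
    · rcases M.all X q with h | h | h | h | h | h
      · exact Or.inl h
      · exact Or.inr (Or.inl h)
      · exact Or.inr (Or.inr h)
      · exact absurd h hqr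
      · exact absurd h hqe
      · exact absurd h hqf
  · exact absurd h hre
  · exact absurd h hrf

/-- rows E, H: all the neighbours with the pair `ef` -/
theorem rowEH98 (hE : RowE98) (hh : RowH98) (X : XC U T) (L : List98 T)
    (M : Md98 T V a b c d e f) (hy : dist y V = 1) {p q : Fin 6} (hD : DPt T y p q e f) :
    False := by
  have hpe : p ≠ e := hD.ac
  have hqe : q ≠ e := hD.bc
  have hpf : p ≠ f := hD.ad
  have hqf : q ≠ f := hD.bd
  have kE := fun {a b c d} (M : Md98 T V a b c d e f) => hE U T X L V a b c d e f M y hy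
  have kH := fun {a b c d} (M : Md98 T V a b c d e f) => hh U T X L V a b c d e f M y hy
  rcases M.all X p with h | h | h | h | h | h
  · subst h
    rcases M.all X q with h | h | h | h | h | h
    · exact hD.ab h.symm
    · subst h; exact kH M hD
    · subst h; exact kE M hD
    · subst h; exact kE M.swap34 hD
    · exact hqe h
    · exact hqf h
  · subst h
    rcases M.all X q with h | h | h | h | h | h
    · subst h; exact kH M.swap12 hD
    · exact hD.ab h.symm
    · subst h; exact kE M.swap12 hD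
    · subst h; exact kE M.swap12.swap34 hD
    · exact hqe h
    · exact hqf h
  · subst h
    rcases M.all X q with h | h | h | h | h | h
    · subst h; exact kE M hD.swap12
    · subst h; exact kE M.swap12 hD.swap12
    · exact hD.ab h.symm
    · subst h; exact kH M.swap hD
    · exact hqe h
    · exact hqf h
  · subst h
    rcases M.all X q with h | h | h | h | h | h
    · subst h; exact kE M.swap34 hD.swap12
    · subst h; exact kE M.swap12.swap34 hD.swap12
    · subst h; exact kH M.swap hD.swap12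
    · exact hD.ab h.symm
    · exact hqe h
    · exact hqf h
  · exact hpe h
  · exact hpf h

/-- no such point -/
theorem kill98 (hT : RowTri98) (hH : RowHarm98) (hK : RowK98) (hE : RowE98) (hh : RowH98)
    (X : XC U T) (M : Md98 T V a b c d e f) : False := by
  have L := list98 X hT hH
  obtain ⟨y, -, -, ⟨hy, h4, hne, hHa⟩, -⟩ := two98 X hT hH M
  rcases X.df.harm_or h4 with ⟨A, hA⟩ | ⟨p, q, r, s, hD⟩
  · exact hH U T X V a b c d e f M y hy A hA
  have hef : e ≠ f := (nd_all353 M.nd).2.2.2.2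
  by_cases he : e ∈ T y
  · -- the pair `ef`
    have hPQ := PQ738.of_dpt X.df.irr hD
    have h1 : ({p, q} : Set (Fin 6)) = {e, f} ∨ ({r, s} : Set (Fin 6)) = {e, f} := by
      by_contra hcon
      rw [not_or] at hcon
      exact hHa ⟨_, _, hPQ, hcon.1, hcon.2, he⟩
    have key : ∀ {p q r s : Fin 6}, DPt T y p q r s → ({r, s} : Set (Fin 6)) = {e, f} → False := by
      intro p q r s hD h2
      have h3 : r ∈ ({e, f} : Set (Fin 6)) := h2 ▸ Or.inl rfl
      have h4 : s ∈ ({e, f} : Set (Fin 6)) := h2 ▸ Or.inr rfl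
      rcases h3 with h3 | h3
      · rcases h4 with h4 | h4
        · exact hD.cd (h3.trans h4.symm)
        · rw [mem_singleton_iff] at h4
          subst h3; subst h4
          exact rowEH98 hE hh X L M hy hD
      · rw [mem_singleton_iff] at h3
        rcases h4 with h4 | h4
        · subst h3; subst h4
          exact rowEH98 hE hh X L M hy hD.swap34
        · rw [mem_singleton_iff] at h4
          exact hD.cd (h3.trans h4.symm)
    rcases h1 with h1 | h1
    · exact key hD.swap h1
    · exact key hD h1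
  · -- no `e`
    have hf : f ∈ T y := by
      by_contra hf
      refine hne (Set.eq_of_subset_of_ncard_le (fun i hi => ?_) ?_ (Set.toFinite _))
      · rw [M.dpt.pal]
        rcases M.all X i with h | h | h | h | h | h
        · exact Or.inl h
        · exact Or.inr (Or.inl h)
        · exact Or.inr (Or.inr (Or.inl h))
        · exact Or.inr (Or.inr (Or.inr h))
        · exact absurd (h ▸ hi) he
        · exact absurd (h ▸ hi) hf
      · rw [M.dpt.ncard]; exact h4
    have hf' := hf
    rw [hD.pal] at hf'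
    rcases hf' with h | h | h | h
    · subst h; exact rowK_all98 hK X L M hy hD.swap.swap34 he
    · subst h; exact rowK_all98 hK X L M hy hD.swap he
    · subst h; exact rowK_all98 hK X L M hy hD.swap34 he
    · rw [mem_singleton_iff] at h
      subst h; exact rowK_all98 hK X L M hy hD he

/-- **row M from the rows** -/
theorem rowMC98 (hT : RowTri98) (hH : RowHarm98) (hK : RowK98) (hE : RowE98) (hh : RowH98) :
    RowMC := by
  intro U T X V a b c d hV
  obtain ⟨e, f, nd⟩ := hV.exists_nodup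
  rcases H79.modes79 X.df.irr X.nc hV nd with h1 | h1 | ⟨g, g', hg, h2, h3, h4, h5⟩
  · exact Or.inl (H79.pf_of_free79 X.df.irr hV h1)
  · exact Or.inr (H79.pf_of_free79 X.df.irr hV.swap h1)
  · exfalso
    have nd' : [a, b, c, d, g, g'].Nodup := by
      rcases hg with ⟨rfl, rfl⟩ | ⟨rfl, rfl⟩
      · exact nd
      · simp only [List.nodup_cons, List.mem_cons, List.not_mem_nil, or_false, not_or,
          List.nodup_nil, and_true, not_false_eq_true] at nd ⊢
        obtain ⟨⟨ab, ac, ad, ae, af⟩, ⟨bc, bd, be, bf⟩, ⟨cd, ce, cf⟩, ⟨de, df⟩, ef⟩ := nd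
        exact ⟨⟨ab, ac, ad, af, ae⟩, ⟨bc, bd, bf, be⟩, ⟨cd, cf, ce⟩, ⟨df, de⟩, Ne.symm ef⟩
    exact kill98 hT hH hK hE hh X ⟨hV, nd', h2, h3, h4, h5⟩

end Vale.Agent.P032.H98
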