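import Vale.Agent.P032.H98.StarFin
import Vale.Agent.P032.H98.AntiP
import Vale.Agent.P032.H383.Letters
import Vale.Agent.P032.S5.H824.Two

/-!
# P032: a two-pair point whose plain ends all carry the same free letter

`z` a two-pair point with the pairs `ab | cd` and the free colours `e, f`.  The points of `S(z)` have
at most three colours or the palette of `z`.  If the colour `f` never meets the closed `ab`- and
`cd`-arcs, then there is a contradiction (`Irr.star_false`): the five classes of columns of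
`StarFin.lean` are permuted without fixed class by the rotation by 60 degrees.
-/

open Set Filter Topology Metric

noncomputable section

namespace Vale.Agent.P032.Six

open Vale.Agent.P032.S5.H767 Vale.Agent.P032.S5.H122 Vale.Agent.P032.Sweep

variable {U : Fin 6 → Set ℂ} {T : ℂ → Set (Fin 6)} {z : ℂ} {a b c d e f : Fin 6}

open Classical in
/-- the letter of a palette -/
def lt98 (a b e f : Fin 6) (P : Set (Fin 6)) : Fin 4 :=
  if e ∈ P then 0 else if f ∈ P then 1 else if P = {a, b} then 2 else 3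

/-- the data of the star case -/
structure St98 (U : Fin 6 → Set ℂ) (T : ℂ → Set (Fin 6)) (z : ℂ) (a b c d e f : Fin 6) : Prop where
  irr : Irr U T
  dpt : DPt T z a b c d
  nd : [a, b, c, d, e, f].Nodup
  hJ : ∀ y, dist y z = 1 → (T y).ncard ≤ 3 ∨ T y = T z
  hA : ∀ y ∈ closure (Ex T z {a, b}), f ∉ T y
  hC : ∀ y ∈ closure (Ex T z {c, d}), f ∉ T y

namespace St98

theorem ctr (S : St98 U T z a b c d e f) : Ctr U T z a b c d e f where
  irr := S.irr
  pal := S.dpt.pal
  nd := S.nd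
  pairs := fun y hy hloc hsub => S.irr.twoPairs S.dpt y hy hloc hsub

/-- the letter sets -/
def X (T : ℂ → Set (Fin 6)) (z : ℂ) (a b e f : Fin 6) : Unit × Fin 6 → Fin 4 → Set ℝ :=
  Xl T (fun _ : Unit => z) 0 (fun _ => lt98 a b e f)

/-- the point of the slot `j` at the time `u` -/
def pj (z : ℂ) (u : ℝ) (j : Fin 6) : ℂ := pt z (0 + u + (j.val : ℝ))

theorem pj_succ (z : ℂ) (u : ℝ) (j : Fin 6) : pj z u (j + 1) = pt z (0 + u + (j.val : ℝ) + 1) :=
  pt_succ z 0 u j

theorem pj_add3 (z : ℂ) (u : ℝ) (j : Fin 6) : pj z u (j + 3) = 2 * z - pj z u j := by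
  show pt z (0 + u + ((j + 3 : Fin 6).val : ℝ)) = _
  rw [pt_add3, pt_three]; rfl

theorem dist_pj (z : ℂ) (u : ℝ) (j : Fin 6) : dist (pj z u j) z = 1 := dist_pt _ _

theorem dist_pj_succ (z : ℂ) (u : ℝ) (j : Fin 6) : dist (pj z u j) (pj z u (j + 1)) = 1 := by
  rw [pj_succ]; exact dist_pt_one _ _

/-- the old letter sets contain the new ones -/
theorem mem_Lt (S : St98 U T z a b c d e f) {j : Fin 6} {l : Fin 4} {u : ℝ}
    (hu : u ∈ X T z a b e f ((), j) l) : pj z u j ∈ Lt T z a b c d e f l := by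
  obtain ⟨P, hP, h1, h2⟩ := Xl_pal hu
  have hsub : P ⊆ T (pj z u j) := sub_of_closure S.irr h2
  have hP : lt98 a b e f P = l := hP
  unfold lt98 at hP
  by_cases he : e ∈ P
  · rw [if_pos he] at hP
    subst hP
    exact ⟨dist_pj z u j, hsub he⟩
  rw [if_neg he] at hP
  by_cases hf : f ∈ P
  · rw [if_pos hf] at hP
    subst hP
    exact ⟨dist_pj z u j, hsub hf⟩
  rw [if_neg hf] at hP
  by_cases hab : P = {a, b}
  · rw [if_pos hab] at hP
    subst hP
    subst hab
    exact h2
  rw [if_neg hab] at hP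
  subst hP
  -- `P` is a constant palette inside `T z`
  have hPz : P ⊆ T z := by
    intro i hi
    by_contra hcon
    rcases S.ctr.miss hcon with rfl | rfl
    · exact he hi
    · exact hf hi
  obtain ⟨v, hv1, hv2⟩ : ({v | v ∈ Lc T z ∧ T (pt z v) = P} : Set ℝ).Nonempty :=
    closure_nonempty_iff.1 ⟨_, h1⟩
  have hcd : P = {c, d} := by
    rcases S.ctr.pairs (pt z v) (dist_pt z v) (Lc_circle hv1) (by rw [hv2]; exact hPz) with h3 | h3
    · exact absurd (hv2.symm.trans h3) hab
    · exact hv2.symm.trans h3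
  rw [hcd] at h2
  exact h2

/-- the letter of a generic palette -/
theorem lt_Lt (S : St98 U T z a b c d e f) {s : ℝ} (hs : s ∈ Lc T z) :
    pt z s ∈ Lt T z a b c d e f (lt98 a b e f (T (pt z s))) := by
  unfold lt98
  split_ifs with he hf hab
  · exact ⟨dist_pt z s, he⟩
  · exact ⟨dist_pt z s, hf⟩
  · have := Lc_Ex hs
    rw [hab] at this
    exact subset_closure this
  · have hPz : T (pt z s) ⊆ T z := by
      intro i hi
      by_contra hcon
      rcases S.ctr.miss hcon with rfl | rfl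
      · exact he hi
      · exact hf hi
    rcases S.ctr.pairs (pt z s) (dist_pt z s) (Lc_circle hs) hPz with h3 | h3
    · exact absurd h3 hab
    · have := Lc_Ex hs
      rw [h3] at this
      exact subset_closure this

/-- legal columns -/
def Leg (g : Unit × Fin 6 → Fin 4) : Prop :=
  (∀ j, g ((), j) ≠ g ((), j + 1)) ∧ ∀ j, ¬ (g ((), j) = 2 ∧ g ((), j + 3) = 3)

/-- `A` and `C` are not available at opposite slots -/
theorem opp (S : St98 U T z a b c d e f) {j : Fin 6} {u : ℝ}
    (h2 : u ∈ X T z a b e f ((), j) 2) (h3 : u ∈ X T z a b e f ((), j + 3) 3) : False := by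
  have k2 : pj z u j ∈ closure (Ex T z {a, b}) := S.mem_Lt h2
  have k3 : pj z u (j + 3) ∈ closure (Ex T z {c, d}) := S.mem_Lt h3
  have hsub : ({c, d} : Set (Fin 6)) ⊆ T (pj z u (j + 3)) := sub_of_closure S.irr k3
  refine S.irr.anti_clo S.dpt (dist_pj z u (j + 3)) (hsub (by simp)) (hsub (by simp)) ?_
  rw [pj_add3, sub_sub_cancel]
  exact k2

theorem sw (S : St98 U T z a b c d e f) : Sw (X T z a b e f) Leg := by
  refine sw_of S.irr dense_univ fun u _ hu => ?_
  have hL : ∀ j : Fin 6, lt98 a b e f (T (pj z u j)) = lt98 a b e f (T (pj z u j)) := fun _ => rfl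
  have hav : ∀ j : Fin 6, u ∈ X T z a b e f ((), j) (lt98 a b e f (T (pj z u j))) := fun j =>
    (Xl_Lc (hu ((), j))).2 rfl
  constructor
  · intro j hj
    have hj : lt98 a b e f (T (pj z u j)) = lt98 a b e f (T (pj z u (j + 1))) := hj
    have hdis : Disjoint (T (pj z u j)) (T (pj z u (j + 1))) := by
      rw [pj_succ]; exact dj_sixty S.irr (hu ((), j))
    obtain ⟨t, ht⟩ := col_nonempty (a := a) (b := b) (c := c) (d := d) (e := e) (f := f)
      (lt98 a b e f (T (pj z u j)))
    have h1 := Lt_col S.irr (S.mem_Lt (hav j)) ht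
    have h2 := Lt_col S.irr (S.mem_Lt (hav (j + 1))) (hj ▸ ht)
    exact Set.disjoint_left.1 hdis h1 h2
  · rintro j ⟨h2, h3⟩
    have h2 : lt98 a b e f (T (pj z u j)) = 2 := h2
    have h3 : lt98 a b e f (T (pj z u (j + 3))) = 3 := h3
    exact S.opp (h2 ▸ hav j) (h3 ▸ hav (j + 3))

/-- `f` does not meet the pairs -/
theorem ct (S : St98 U T z a b c d e f) {j : Fin 6} {l m : Fin 4} {u : ℝ}
    (hl : u ∈ X T z a b e f ((), j) l) (hm : u ∈ X T z a b e f ((), j) m) : H98.Ct l m := by
  have kl := S.mem_Lt hl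
  have km := S.mem_Lt hm
  refine ⟨?_, ?_, ?_, ?_⟩
  · rintro ⟨rfl, rfl⟩; exact S.hA _ km kl.2
  · rintro ⟨rfl, rfl⟩; exact S.hC _ km kl.2
  · rintro ⟨rfl, rfl⟩; exact S.hA _ kl km.2
  · rintro ⟨rfl, rfl⟩; exact S.hC _ kl km.2

/-- no letter `e`, `f` at a point with the palette of `z` -/
theorem noEF_of_eq (S : St98 U T z a b c d e f) {y : ℂ} (hy : T y = T z) {l : Fin 4}
    (hl : y ∈ Lt T z a b c d e f l) : l = 2 ∨ l = 3 := by
  have hn := S.nd
  simp only [List.nodup_cons, List.mem_cons, List.not_mem_nil, or_false, not_or, List.nodup_nil,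
    and_true, not_false_eq_true] at hn
  obtain ⟨⟨ab, ac, ad, ae, af⟩, ⟨bc, bd, be, bf⟩, ⟨cd, ce, cf⟩, ⟨de, df⟩, ef⟩ := hn
  have he : e ∉ T y := by
    rw [hy, S.dpt.pal]
    simp only [mem_insert_iff, mem_singleton_iff, not_or]
    exact ⟨Ne.symm ae, Ne.symm be, Ne.symm ce, Ne.symm de⟩
  have hf : f ∉ T y := by
    rw [hy, S.dpt.pal]
    simp only [mem_insert_iff, mem_singleton_iff, not_or]
    exact ⟨Ne.symm af, Ne.symm bf, Ne.symm cf, Ne.symm df⟩
  have h4 : l = 0 ∨ l = 1 ∨ l = 2 ∨ l = 3 := by fin_cases l <;> decide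
  rcases h4 with rfl | rfl | h4 | h4
  · exact absurd hl.2 he
  · exact absurd hl.2 hf
  · exact Or.inl h4
  · exact Or.inr h4

/-- no swap of neighbours, except `A`, `C` -/
theorem noswap (S : St98 U T z a b c d e f) {j : Fin 6} {l m : Fin 4} {u : ℝ} (hlm : l ≠ m)
    (hl : u ∈ X T z a b e f ((), j) l) (hm : u ∈ X T z a b e f ((), j) m)
    (hl' : u ∈ X T z a b e f ((), j + 1) l) (hm' : u ∈ X T z a b e f ((), j + 1) m) :
    (l = 2 ∧ m = 3) ∨ (l = 3 ∧ m = 2) := by
  have kl := S.mem_Lt hl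
  have km := S.mem_Lt hm
  have kl' := S.mem_Lt hl'
  have km' := S.mem_Lt hm'
  have fin : (l = 2 ∨ l = 3) → (m = 2 ∨ m = 3) → (l = 2 ∧ m = 3) ∨ (l = 3 ∧ m = 2) := by
    rintro (rfl | rfl) (rfl | rfl)
    · exact absurd rfl hlm
    · exact Or.inl ⟨rfl, rfl⟩
    · exact Or.inr ⟨rfl, rfl⟩
    · exact absurd rfl hlm
  rcases S.hJ _ (dist_pj z u j) with h3 | hz
  · rcases S.hJ _ (dist_pj z u (j + 1)) with h3' | hz'
    · exact (S.ctr.noswap hlm (dist_pj_succ z u j) h3 h3' kl km kl' km').elim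
    · exact fin (S.noEF_of_eq hz' kl') (S.noEF_of_eq hz' km')
  · exact fin (S.noEF_of_eq hz kl) (S.noEF_of_eq hz km)

/-- **the step**: the class does not change -/
theorem loc (S : St98 U T z a b c d e f) {u : ℝ} {g g' : Unit × Fin 6 → Fin 4} (hg : Leg g)
    (hg' : Leg g') (ha : Av (X T z a b e f) u g) (ha' : Av (X T z a b e f) u g') :
    H98.lab (fun j => g ((), j)) = H98.lab (fun j => g' ((), j)) := by
  refine H98.tie _ _ (fun j => S.ct (ha ((), j)) (ha' ((), j))) (fun j => ?_) (fun j => ?_)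
  · refine ⟨hg.1 j, hg'.1 j, ?_⟩
    rintro ⟨h1, h2, h3, h4⟩
    refine h4 (S.noswap h1 (ha ((), j)) (ha' ((), j)) ?_ ?_)
    · rw [h2]; exact ha' ((), j + 1)
    · rw [h3]; exact ha ((), j + 1)
  · have e3 : j + 3 + 3 = j := by rw [add_assoc]; exact add_zero j
    constructor
    · rintro ⟨h1, h2⟩
      have k1 : u ∈ X T z a b e f ((), j) 2 := by
        rcases h1 with h1 | h1
        · rw [← h1]; exact ha ((), j)
        · rw [← h1]; exact ha' ((), j)
      have k2 : u ∈ X T z a b e f ((), j + 3) 3 := by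
        rcases h2 with h2 | h2
        · rw [← h2]; exact ha ((), j + 3)
        · rw [← h2]; exact ha' ((), j + 3)
      exact S.opp k1 k2
    · rintro ⟨h1, h2⟩
      have k1 : u ∈ X T z a b e f ((), j + 3 + 3) 3 := by
        rw [e3]
        rcases h1 with h1 | h1
        · rw [← h1]; exact ha ((), j)
        · rw [← h1]; exact ha' ((), j)
      have k2 : u ∈ X T z a b e f ((), j + 3) 2 := by
        rcases h2 with h2 | h2
        · rw [← h2]; exact ha ((), j + 3)
        · rw [← h2]; exact ha' ((), j + 3)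
      exact S.opp k2 k1

theorem false (S : St98 U T z a b c d e f) : False := by
  have w := S.sw
  have hloc : ∀ u, ∀ h ∈ LC (X T z a b e f) u ∪ RC (X T z a b e f) u,
      ∀ h' ∈ LC (X T z a b e f) u ∪ RC (X T z a b e f) u,
      H98.lab (fun j => h ((), j)) = H98.lab (fun j => h' ((), j)) := by
    intro u h hh h' hh'
    have key : ∀ h ∈ LC (X T z a b e f) u ∪ RC (X T z a b e f) u,
        Leg h ∧ Av (X T z a b e f) u h := by
      rintro h (hh | hh)
      · exact ⟨w.leg_of_LC hh, w.av_of_LC hh⟩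
      · exact ⟨w.leg_of_RC hh, w.av_of_RC hh⟩
    exact S.loc (key h hh).1 (key h' hh').1 (key h hh).2 (key h' hh').2
  obtain ⟨h, hh⟩ := w.LC_ne 0
  obtain ⟨h', hh'⟩ := w.RC_ne 0
  have h1 := w.turn (σ := rt Unit) (fun s l u => Xl_per s l u)
    (R := fun g g' => H98.lab (fun j => g ((), j)) = H98.lab (fun j => g' ((), j)))
    (fun _ _ _ h1 h2 => h1.trans h2) 0 (fun u _ => hloc u) h hh h' hh'
  have h2 := hloc 0 h (Or.inl hh) h' (Or.inr hh')
  have hleg := w.leg_of_LC hh
  refine H98.rot (fun j => h ((), j)) hleg.1 hleg.2 ?_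
  exact (h2.trans h1).symm

end St98

/-- **The plain ends of a two-pair point do not all carry the same free letter** (the points of order
at least four on its circle have its palette). -/
theorem Irr.star_false (h : Irr U T) (hz : DPt T z a b c d) (nd : [a, b, c, d, e, f].Nodup)
    (hJ : ∀ y, dist y z = 1 → (T y).ncard ≤ 3 ∨ T y = T z)
    (hA : ∀ y ∈ closure (Ex T z {a, b}), f ∉ T y)
    (hC : ∀ y ∈ closure (Ex T z {c, d}), f ∉ T y) : False :=
  St98.false ⟨h, hz, nd, hJ, hA, hC⟩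

end Vale.Agent.P032.Six
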