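import Vale.Agent.P032.H98.Corner

/-!
# P032: neighbours with one colour of each pair

`E98 T z y` : `z`, `y` are two-pair points with the pairs `ab | cd` and `ae | cf`, `e, f ∉ T z`.

`E98.out` : if `y` is full, then `z` is opposite to one of the two ends of the full arc of `y`, and the
two colours of `y` missing at `z` are the outer colours of this end at `y`.
`E98.only` : then a point of `S(y)` with both these colours is an end of the full arc.
`E98.far` : if `y` and `z` are full, these ends have distance more than one from `z` and its ends.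
-/

open Set Filter Topology Metric

noncomputable section

namespace Vale.Agent.P032.Six

variable {k : ℕ} {U : Fin k → Set ℂ} {T : ℂ → Set (Fin k)}

/-- one colour of each pair in common -/
def E98 (T : ℂ → Set (Fin k)) (z y : ℂ) : Prop :=
  ∃ a b c d e f : Fin k, DPt T z a b c d ∧ DPt T y a e c f ∧ e ∉ T z ∧ f ∉ T z

theorem E98.symm {z y : ℂ} (E : E98 T z y) : E98 T y z := by
  obtain ⟨a, b, c, d, e, f, hz, hy, he, hf⟩ := E
  have hb : b ∈ T z := by rw [hz.pal]; simp
  have hd : d ∈ T z := by rw [hz.pal]; simp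
  refine ⟨a, e, c, f, b, d, hy, hz, ?_, ?_⟩
  · rw [hy.pal]
    rintro (h1 | h1 | h1 | h1)
    · exact hz.ab h1.symm
    · exact he (h1 ▸ hb)
    · exact hz.bc h1
    · exact hf (h1 ▸ hb)
  · rw [hy.pal]
    rintro (h1 | h1 | h1 | h1)
    · exact hz.ad h1.symm
    · exact he (h1 ▸ hd)
    · exact hz.cd h1.symm
    · exact hf (h1 ▸ hd)

theorem E98.ne {z y : ℂ} (E : E98 T z y) : T z ≠ T y := by
  obtain ⟨a, b, c, d, e, f, hz, hy, he, hf⟩ := E
  intro h1
  exact he (by rw [h1, hy.pal]; simp)

theorem DPt.card98 {y : ℂ} {a e c f : Fin k} (D : DPt T y a e c f) : (T y).ncard = 4 := by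
  rw [D.pal, Set.ncard_insert_of_notMem (by simp [D.ab, D.ac, D.ad]),
    Set.ncard_insert_of_notMem (by simp [D.bc, D.bd]), Set.ncard_pair D.cd]

/-- the pairs of a two-pair point -/
theorem Irr.pair_alt98 (h : Irr U T)
    (hmin : ∀ z, 4 ≤ (T z).ncard → ∀ s, s ⊆ T z → s ≠ T z →
      ¬ ∀ᶠ w in 𝓝 z, ∃ i ∈ s, w ∈ U i ∨ (w ∈ XX U ∧ i ∈ Pal U w))
    {y : ℂ} {a e c f a' b' c' d' : Fin k} (D : DPt T y a e c f) (D' : DPt T y a' b' c' d') :
    ({a', b'} : Set (Fin k)) = {a, e} ∨ ({a', b'} : Set (Fin k)) = {c, f} := by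
  obtain ⟨g, hg⟩ := D.arc1
  obtain ⟨g', hg'⟩ := D'.arc1
  have sub : ∀ {a e c f : Fin k}, DPt T y a e c f → ({a, e} : Set (Fin k)) ⊆ T y := by
    intro a e c f D
    rw [D.pal]
    rintro i (rfl | hi)
    · simp
    · rw [mem_singleton_iff] at hi; subst hi; simp
  rcases h.arcs_disj169 hmin D.card98 (sub D') (sub D) (Set.ncard_pair D'.ab)
    (Set.ncard_pair D.ab) hg' hg with h1 | h1
  · exact Or.inl h1
  · right
    refine Set.eq_of_subset_of_ncard_le ?_ ?_ (Set.toFinite _)
    · intro i hi
      have h2 := sub D' hi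
      rw [D.pal] at h2
      rcases h2 with h2 | h2 | h2 | h2
      · exact absurd (by rw [h2]; simp) (Set.disjoint_left.1 h1 hi)
      · exact absurd (by rw [h2]; simp) (Set.disjoint_left.1 h1 hi)
      · exact Or.inl h2
      · exact Or.inr h2
    · rw [Set.ncard_pair D.cd, Set.ncard_pair D'.ab]

/-- data of a full point `y` with the neighbour `z` opposite to the end `p` -/
structure Op98 (T : ℂ → Set (Fin k)) (z y p r : ℂ) (i j l o : Fin k) : Prop where
  vx : Vx98 T y p r i j l o
  opp : z + p = 2 * y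
  iz : i ∈ T z
  jz : j ∈ T z
  lz : l ∉ T z
  oz : o ∉ T z
  ang : 1 / 2 ≤ ip (p - y) (r - y)
  ends : ∀ q, dist q y = 1 → T q = T y → q = p ∨ q = r

theorem ip_comm98 (a b : ℂ) : ip a b = ip b a := by unfold ip; ring

theorem ip_cis98 (s t : ℝ) : ip (cis s) (cis t) = Real.cos (t - s) := by
  unfold ip
  rw [cis_re, cis_im, cis_re, cis_im, Real.cos_sub]
  ring

theorem half_le_cos98 {t : ℝ} (ht : |t| ≤ Real.pi / 3) : 1 / 2 ≤ Real.cos t := by
  rw [← Real.cos_abs, ← Real.cos_pi_div_three]
  have hpi := Real.pi_pos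
  exact Real.cos_le_cos_of_nonneg_of_le_pi (abs_nonneg t) (by linarith) ht

/-- **position of a neighbour with one colour of each pair at a full point** -/
theorem E98.out {z y : ℂ} (E : E98 T z y) (h : Irr U T)
    (hmin : ∀ z, 4 ≤ (T z).ncard → ∀ s, s ⊆ T z → s ≠ T z →
      ¬ ∀ᶠ w in 𝓝 z, ∃ i ∈ s, w ∈ U i ∨ (w ∈ XX U ∧ i ∈ Pal U w))
    (hz1 : dist z y = 1) (hy : Full T y) : ∃ p r i j l o, Op98 T z y p r i j l o := by
  have hne := E.ne
  obtain ⟨a, b, c, d, e, f, hz, hy', he, hf⟩ := E
  obtain ⟨a', b', c', d', α, β, i, j, l, o, D', -, hle, V, hends, hio⟩ := hy.vx h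
  have haz : a ∈ T z := by rw [hz.pal]; simp
  have hcz : c ∈ T z := by rw [hz.pal]; simp
  have hyz : dist y z = 1 := by rw [dist_comm]; exact hz1
  have hang : 1 / 2 ≤ ip (y + cis α - y) (y + cis β - y) := by
    rw [add_sub_cancel_left, add_sub_cancel_left, ip_cis98]
    exact half_le_cos98 hle
  -- `i`, `o` is a pair
  have hp : ({i, o} : Set (Fin k)) = {a, e} ∨ ({i, o} : Set (Fin k)) = {c, f} := by
    have h1 : ({i, o} : Set (Fin k)) = {a', b'} := by
      rcases hio with ⟨rfl, rfl⟩ | ⟨rfl, rfl⟩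
      · rfl
      · rw [pair_comm]
    rw [h1]
    exact h.pair_alt98 hmin hy' D'
  have hio' : ¬ (i ∈ T z ∧ o ∈ T z) := by
    rintro ⟨h1, h2⟩
    rcases hp with h3 | h3
    · have : e ∈ ({i, o} : Set (Fin k)) := by rw [h3]; simp
      rcases this with rfl | h4
      · exact he h1
      · rw [mem_singleton_iff] at h4; subst h4; exact he h2
    · have : f ∈ ({i, o} : Set (Fin k)) := by rw [h3]; simp
      rcases this with rfl | h4
      · exact hf h1
      · rw [mem_singleton_iff] at h4; subst h4; exact hf h2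
  have hmem : ∀ m, m ∈ T y ↔ m = i ∨ m = j ∨ m = l ∨ m = o := by
    intro m; rw [V.pal]; simp only [mem_insert_iff, mem_singleton_iff]
  have hmem' : ∀ m, m ∈ T y ↔ m = a ∨ m = e ∨ m = c ∨ m = f := by
    intro m; rw [hy'.pal]; simp only [mem_insert_iff, mem_singleton_iff]
  have hjl' : ¬ (j ∈ T z ∧ l ∈ T z) := by
    rintro ⟨h1, h2⟩
    have j1 : j = a ∨ j = c := by
      rcases (hmem' j).1 ((hmem j).2 (by simp)) with h4 | h4 | h4 | h4
      · exact Or.inl h4
      · exact absurd (h4 ▸ h1) he
      · exact Or.inr h4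
      · exact absurd (h4 ▸ h1) hf
    have l1 : l = a ∨ l = c := by
      rcases (hmem' l).1 ((hmem l).2 (by simp)) with h4 | h4 | h4 | h4
      · exact Or.inl h4
      · exact absurd (h4 ▸ h2) he
      · exact Or.inr h4
      · exact absurd (h4 ▸ h2) hf
    have hac : a ∈ ({j, l} : Set (Fin k)) ∧ c ∈ ({j, l} : Set (Fin k)) := by
      have hjl := V.jl
      rcases j1 with rfl | rfl <;> rcases l1 with rfl | rfl
      · exact absurd rfl hjl
      · simp
      · simp
      · exact absurd rfl hjl
    rcases hp with h3 | h3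
    · have : a ∈ ({i, o} : Set (Fin k)) := by rw [h3]; simp
      rcases this with rfl | h4
      · rcases hac.1 with h5 | h5
        · exact V.ij h5
        · exact V.il h5
      · rw [mem_singleton_iff] at h4; subst h4
        rcases hac.1 with h5 | h5
        · exact V.jo h5.symm
        · exact V.lo h5.symm
    · have : c ∈ ({i, o} : Set (Fin k)) := by rw [h3]; simp
      rcases this with rfl | h4
      · rcases hac.2 with h5 | h5
        · exact V.ij h5
        · exact V.il h5
      · rw [mem_singleton_iff] at h4; subst h4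
        rcases hac.2 with h5 | h5
        · exact V.jo h5.symm
        · exact V.lo h5.symm
  have zp : z ≠ y + cis α := fun h1 => hne (by rw [h1]; exact V.Tp)
  have zr : z ≠ y + cis β := fun h1 => hne (by rw [h1]; exact V.Tr)
  have hlo' : ¬ (l ∈ T z ∧ o ∈ T z) := by
    rintro ⟨h1, h2⟩
    rcases V.out_pair h hyz h1 h2 with h3 | h3
    · exact zp h3
    · exact zr h3
  have hjo' : ¬ (j ∈ T z ∧ o ∈ T z) := by
    rintro ⟨h1, h2⟩
    rcases V.symm.out_pair h hyz h1 h2 with h3 | h3
    · exact zr h3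
    · exact zp h3
  -- `o ∉ T z`
  have ho : o ∉ T z := by
    intro ho
    have hi : i ∉ T z := fun h1 => hio' ⟨h1, ho⟩
    have hj : j ∉ T z := fun h1 => hjo' ⟨h1, ho⟩
    have hl : l ∉ T z := fun h1 => hlo' ⟨h1, ho⟩
    have k1 : ∀ m, m ∈ T z → m ∈ T y → m = o := by
      intro m hm hmy
      rcases (hmem m).1 hmy with rfl | rfl | rfl | rfl
      · exact absurd hm hi
      · exact absurd hm hj
      · exact absurd hm hl
      · rfl
    exact hy'.ac ((k1 a haz ((hmem' a).2 (by simp))).trans (k1 c hcz ((hmem' c).2 (by simp))).symm)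
  have hi : i ∈ T z := by
    by_contra hi
    have k1 : ∀ m, m ∈ T z → m ∈ T y → m = j ∨ m = l := by
      intro m hm hmy
      rcases (hmem m).1 hmy with rfl | rfl | rfl | rfl
      · exact absurd hm hi
      · exact Or.inl rfl
      · exact Or.inr rfl
      · exact absurd hm ho
    have k2 := k1 a haz ((hmem' a).2 (by simp))
    have k3 := k1 c hcz ((hmem' c).2 (by simp))
    have hac := hy'.ac
    rcases k2 with rfl | rfl <;> rcases k3 with rfl | rfl
    · exact hac rfl
    · exact hjl' ⟨haz, hcz⟩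
    · exact hjl' ⟨hcz, haz⟩
    · exact hac rfl
  by_cases hj : j ∈ T z
  · have hl : l ∉ T z := fun h1 => hjl' ⟨hj, h1⟩
    refine ⟨y + cis α, y + cis β, i, j, l, o, V, ?_, hi, hj, hl, ho, hang, hends⟩
    rcases V.in_pair h hyz hi hj with h3 | h3 | h3
    · exact absurd h3 zp
    · exact absurd h3 zr
    · exact h3
  · have hl : l ∈ T z := by
      by_contra hl
      have k1 : ∀ m, m ∈ T z → m ∈ T y → m = i := by
        intro m hm hmy
        rcases (hmem m).1 hmy with rfl | rfl | rfl | rfl
        · rfl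
        · exact absurd hm hj
        · exact absurd hm hl
        · exact absurd hm ho
      exact hy'.ac ((k1 a haz ((hmem' a).2 (by simp))).trans (k1 c hcz ((hmem' c).2 (by simp))).symm)
    refine ⟨y + cis β, y + cis α, i, l, j, o, V.symm, ?_, hi, hl, hj, ho, ?_, fun q h1 h2 =>
      (hends q h1 h2).symm⟩
    · rcases V.symm.in_pair h hyz hi hl with h3 | h3 | h3
      · exact absurd h3 zr
      · exact absurd h3 zp
      · exact h3
    · rw [ip_comm98]; exact hang

namespace Op98

variable {z y p r : ℂ} {i j l o : Fin k}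

/-- points of `S(y)` with both colours of `y` missing at `z` -/
theorem only (O : Op98 T z y p r i j l o) (h : Irr U T) {u : ℂ} (hu : dist u y = 1) {e f : Fin k}
    (hef : e ≠ f) (he : e ∈ T u) (hf : f ∈ T u) (hey : e ∈ T y) (hfy : f ∈ T y) (hez : e ∉ T z)
    (hfz : f ∉ T z) : u = p ∨ u = r := by
  have key : ∀ m, m ∈ T y → m ∉ T z → m = l ∨ m = o := by
    intro m hm hmz
    rw [O.vx.pal] at hm
    rcases hm with rfl | rfl | rfl | hm
    · exact absurd O.iz hmz
    · exact absurd O.jz hmz
    · exact Or.inl rfl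
    · exact Or.inr hm
  have huy : dist y u = 1 := by rw [dist_comm]; exact hu
  have hlo : l ∈ T u ∧ o ∈ T u := by
    rcases key e hey hez with rfl | rfl <;> rcases key f hfy hfz with rfl | rfl
    · exact absurd rfl hef
    · exact ⟨he, hf⟩
    · exact ⟨hf, he⟩
    · exact absurd rfl hef
  exact O.vx.out_pair h huy hlo.1 hlo.2

/-- the ends at `y` are far from `z` and its ends -/
theorem far {p' r' : ℂ} {i' j' l' o' : Fin k} (O : Op98 T z y p r i j l o)
    (O' : Op98 T y z p' r' i' j' l' o') {u w : ℂ} (hu : u = p ∨ u = r)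
    (hw : w = z ∨ w = p' ∨ w = r') : 1 < dist u w := by
  set D := z - y with hD
  have hDn : ‖D‖ = 1 := by
    have h1 : p - y = -D := by linear_combination O.opp
    have h2 : ‖p - y‖ = 1 := by rw [← dist_eq_norm, dist_comm]; exact O.vx.hp
    rw [h1, norm_neg] at h2
    exact h2
  have hDD : ip D D = 1 := by
    have h1 : ip D D = ‖D‖ ^ 2 := by
      rw [Complex.sq_norm, Complex.normSq_apply]; unfold ip; ring
    rw [h1, hDn, one_pow]
  have h1 : 1 / 2 ≤ ip (y - u) D := by
    rcases hu with rfl | rfl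
    · have h2 : y - u = D := by linear_combination -O.opp
      rw [h2, hDD]; norm_num
    · have h2 : p - y = -D := by linear_combination O.opp
      have h3 := O.ang
      rw [h2, ip_comm98] at h3
      have h4 : ip (y - u) D = ip (u - y) (-D) := by
        unfold ip; simp only [Complex.neg_re, Complex.neg_im, Complex.sub_re, Complex.sub_im]; ring
      rw [h4]; exact h3
  have h2 : 0 ≤ ip (w - z) D := by
    rcases hw with rfl | rfl | rfl
    · unfold ip; simp
    · have h2 : w - z = D := by linear_combination O'.opp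
      rw [h2, hDD]; norm_num
    · have h2 : p' - z = D := by linear_combination O'.opp
      have h3 := O'.ang
      rw [h2, ip_comm98] at h3
      linarith
  have h3 : 3 / 2 ≤ ip (w - u) D := by
    have e1 : ip (w - u) D = ip (w - z) D + ip D D + ip (y - u) D := by
      rw [hD]; unfold ip
      simp only [Complex.sub_re, Complex.sub_im]; ring
    rw [e1, hDD]; linarith
  -- Cauchy-Schwarz
  have h4 : ip (w - u) D ≤ ‖w - u‖ := by
    have e1 : ip (w - u) D ^ 2 ≤ ‖w - u‖ ^ 2 * ‖D‖ ^ 2 := by
      rw [Complex.sq_norm, Complex.normSq_apply, Complex.sq_norm, Complex.normSq_apply]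
      unfold ip
      nlinarith [sq_nonneg ((w - u).re * D.im - (w - u).im * D.re)]
    rw [hDn, one_pow, mul_one] at e1
    exact abs_le_of_sq_le_sq' e1 (norm_nonneg _) |>.2
  rw [dist_comm, dist_eq_norm]
  linarith

end Op98

end Vale.Agent.P032.Six
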