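import Vale.Agent.P032.H98.ParE

/-!
# P032: there are no J-chains, with neighbours with one colour of each pair

`JCh.false98` : the theorem `JCh.false169` with `FullE` instead of `FullP`.
-/

open Set Filter Topology Metric

noncomputable section

namespace Vale.Agent.P032.Six

variable {k : ℕ} {U : Fin k → Set ℂ} {T : ℂ → Set (Fin k)}

/-- inside `S(z)` near `y` only the outer colours at `p` -/
theorem Op98.inn {z y p r : ℂ} {i j l o x : Fin k} (O : Op98 T z y p r i j l o)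
    (hx : InnO T z y x) : x = l ∨ x = o := by
  obtain ⟨w, ⟨hw1, hw2⟩, hw⟩ := ((mem_closure_iff_frequently.1 hx).and_eventually O.vx.near).exists
  have hzp : dist z p = 2 := by
    have h1 : z - p = 2 * (y - p) := by linear_combination O.opp
    rw [dist_eq_norm, h1, norm_mul, ← dist_eq_norm, O.vx.hp]; norm_num
  have h2 : 1 < dist w p := by
    have := dist_triangle z w p
    rw [dist_comm z w] at this
    linarith
  have h3 := hw.2.1 h2 hw2
  rcases h3 with h3 | h3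
  · exact Or.inl h3
  · exact Or.inr h3

/-- the colours of an `E98`-neighbour -/
theorem E98.free98 {z y : ℂ} (E : E98 T z y) {e f : Fin k}
    (hcov : ∀ i, i = e ∨ i = f ∨ i ∈ T z) (hef : e ≠ f) : e ∈ T y ∧ f ∈ T y := by
  obtain ⟨a, b, c, d, e', f', hz, hy, he, hf⟩ := E
  have h1 : e' ∈ T y := by rw [hy.pal]; simp
  have h2 : f' ∈ T y := by rw [hy.pal]; simp
  have h3 : e' ≠ f' := hy.bd
  rcases hcov e' with rfl | rfl | h4
  · rcases hcov f' with h5 | rfl | h5
    · exact absurd h5.symm h3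
    · exact ⟨h1, h2⟩
    · exact absurd h5 hf
  · rcases hcov f' with rfl | h5 | h5
    · exact ⟨h2, h1⟩
    · exact absurd h5.symm h3
    · exact absurd h5 hf
  · exact absurd h4 he

/-- no palette inside `{e, f}` on the circle of an `E98`-neighbour -/
theorem E98.no_ef98 (h : Irr U T)
    (hmin : ∀ z, 4 ≤ (T z).ncard → ∀ s, s ⊆ T z → s ≠ T z →
      ¬ ∀ᶠ w in 𝓝 z, ∃ i ∈ s, w ∈ U i ∨ (w ∈ XX U ∧ i ∈ Pal U w))
    {z y : ℂ} (E : E98 T z y) {e f : Fin k} (hef : e ≠ f) (hez : e ∉ T z) (hfz : f ∉ T z)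
    (he : e ∈ T y) (hf : f ∈ T y) {g : ℂ} (hg : dist g y = 1) (hT : T g ⊆ {e, f}) : False := by
  obtain ⟨a, b, c, d, e', f', hz, hy, he', hf'⟩ := E
  have h1 := h.arc_of_sub169 hef he hf hg hT
  obtain ⟨g', hg'⟩ := hy.arc1
  have haz : a ∈ T z := by rw [hz.pal]; simp
  have hcz : c ∈ T z := by rw [hz.pal]; simp
  have key : ∀ m, m ∈ T y → m ∉ T z → m = e' ∨ m = f' := by
    intro m hm hmz
    rw [hy.pal] at hm
    rcases hm with rfl | rfl | rfl | hm
    · exact absurd haz hmz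
    · exact Or.inl rfl
    · exact absurd hcz hmz
    · exact Or.inr hm
  have hsub : ({a, e'} : Set (Fin k)) ⊆ T y := by
    rw [hy.pal]
    rintro i (rfl | hi)
    · simp
    · rw [mem_singleton_iff] at hi; subst hi; simp
  have hsub' : ({e, f} : Set (Fin k)) ⊆ T y := by
    rintro i (rfl | hi)
    · exact he
    · rw [mem_singleton_iff] at hi; subst hi; exact hf
  rcases h.arcs_disj169 hmin hy.card98 hsub hsub' (Set.ncard_pair hy.ab) (Set.ncard_pair hef)
    hg' h1 with h2 | h2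
  · have : a ∈ ({e, f} : Set (Fin k)) := by rw [← h2]; simp
    rcases this with rfl | h3
    · exact hez haz
    · rw [mem_singleton_iff] at h3; subst h3; exact hfz haz
  · rcases key e he hez with rfl | rfl
    · exact Set.disjoint_left.1 h2 (by simp : e ∈ ({a, e} : Set (Fin k))) (by simp)
    · rcases key f hf hfz with rfl | rfl
      · exact Set.disjoint_left.1 h2 (by simp : f ∈ ({a, f} : Set (Fin k))) (by simp)
      · exact hef rfl

/-- **the parity lemma with a non-removable point** -/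
theorem Irr.par98 (h : Irr U T) {z : ℂ} {e f : Fin k} (hP : Par T z e f)
    (hO : ∀ u, dist u z = 1 → e ∈ T u → f ∈ T u → ∀ g, dist g u = 1 → ¬ T g ⊆ {e, f}) {T' : ℂ → Set (Fin k)}
    (hcl : ∀ i, IsClosed {x | i ∈ T' x}) (hne : ∀ x, (T' x).Nonempty)
    (hag : ∀ q, dist q z = 1 → T' q = T q) (hTe : ∀ w, e ∈ T' w → e ∈ T w)
    (hTf : ∀ w, f ∈ T' w → f ∈ T w) :
    ∃ u x, dist u z ≤ 1 ∧ e ∈ T' u ∧ f ∈ T' u ∧ x ≠ e ∧ x ≠ f ∧ InnO T' z u x ∧
      ∀ g, dist g u = 1 → ¬ T g ⊆ {e, f} := by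
  obtain ⟨u, x, h1, h2, h3, h4, h5, h6, h7⟩ := hP.core715 hcl hne hag
  refine ⟨u, x, h1, h2, h3, h4, h5, h6, fun g hg hgT => ?_⟩
  have he := hTe u h2
  have hf := hTf u h3
  rcases h1.lt_or_eq with h8 | h8
  · obtain ⟨g2, e1, e2, e3⟩ := h.two_pts715 he hf hg hgT
    obtain ⟨N, n1, n2, n3, n4⟩ := h.rem715 hg e1 e2 hgT e3 (r := 1 - dist u z) (by linarith)
    obtain ⟨w, hw, hw1, hw2⟩ := h7 N n1 n2 (n3.trans fun w hw => by
      rw [mem_ball] at hw ⊢
      have := dist_triangle w u z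
      linarith)
    exact n4 w hw ⟨hTe w hw1, hTf w hw2⟩
  · exact hO u h8 he hf g hg hgT

/-- **parity and filling with a non-removable point** -/
theorem Irr.par_fill98 (h : Irr U T) {a e f : Fin k} {z : ℂ} {W Z : Set ℂ} (hW : W.Finite)
    (hzW : z ∈ W) (hP : Par T z e f)
    (hO : ∀ u, dist u z = 1 → e ∈ T u → f ∈ T u → ∀ g, dist g u = 1 → ¬ T g ⊆ {e, f})
    (hZ : ∀ z, (∀ w ∈ W, dist z w ≤ 1) → (∃ w ∈ W, dist z w = 1) → z ∈ Z)
    (hZT : ∀ y ∈ Z, a ∈ T y ∧ e ∉ T y) (hae : a ≠ e) (haf : a ≠ f) :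
    ∃ u x, dist u z ≤ 1 ∧ e ∈ T u ∧ f ∈ T u ∧ x ∈ T u ∧ x ≠ e ∧ x ≠ f ∧ InnO T z u x ∧
      (∃ w ∈ W, 1 < dist u w) ∧ ∀ g, dist g u = 1 → ¬ T g ⊆ {e, f} := by
  have hQ : IsOpen (lens802 W) := isOpen_lens802 hW
  obtain ⟨u, x, h1, h2, h3, h4, h5, h6, hno⟩ := h.par98 hP hO (T' := recol715 T (lens802 W) a)
    (recol_closed715 h.closed hQ a) (recol_ne715 h.ne _ a)
    (fun q hq => by
      have hqQ : q ∉ lens802 W := fun hcon => by
        have := hcon z hzW
        linarith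
      ext i
      constructor
      · rintro (⟨rfl, hc⟩ | ⟨hi, -⟩)
        · exact (hZT q (hZ q (closure_lens802 hc) ⟨z, hzW, hq⟩)).1
        · exact hi
      · intro hi
        exact Or.inr ⟨hi, hqQ⟩)
    (fun w hw => by
      rcases hw with ⟨h7, -⟩ | h7
      · exact absurd h7.symm hae
      · exact h7.1)
    (fun w hw => by
      rcases hw with ⟨h7, -⟩ | h7
      · exact absurd h7.symm haf
      · exact h7.1)
  have he : e ∈ T u ∧ u ∉ lens802 W := by
    rcases h2 with ⟨h7, -⟩ | h7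
    · exact absurd h7.symm hae
    · exact h7
  have hf : f ∈ T u := by
    rcases h3 with ⟨h7, -⟩ | h7
    · exact absurd h7.symm haf
    · exact h7.1
  have hout : ∃ w ∈ W, 1 < dist u w := by
    by_contra hcon
    push Not at hcon
    have h7 : ∃ w ∈ W, dist u w = 1 := by
      by_contra hcon2
      push Not at hcon2
      exact he.2 fun w hw => lt_of_le_of_ne (hcon w hw) (hcon2 w hw)
    exact (hZT u (hZ u hcon h7)).2 he.1
  have huc : u ∉ closure (lens802 W) := by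
    intro hcon
    obtain ⟨w, hw, hw1⟩ := hout
    have := closure_lens802 hcon w hw
    linarith
  have hInn : InnO T z u x := by
    unfold InnO at h6 ⊢
    rw [mem_closure_iff_frequently] at h6 ⊢
    have hev : ∀ᶠ y in 𝓝 u, y ∉ closure (lens802 W) :=
      isClosed_closure.isOpen_compl.mem_nhds huc
    refine (h6.and_eventually hev).mono fun y hy => ?_
    obtain ⟨⟨hy1, hy2⟩, hy3⟩ := hy
    refine ⟨hy1, ?_⟩
    rcases hy2 with ⟨-, h7⟩ | h7
    · exact absurd h7 hy3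
    · exact h7.1
  refine ⟨u, x, h1, he.1, hf, ?_, h4, h5, hInn, hout, hno⟩
  exact closure_minimal (s := {w | dist w z < 1 ∧ x ∈ T w}) (t := {w | x ∈ T w})
    (fun y hy => hy.2) (h.closed x) hInn

namespace JCh

variable {V : ℕ → ℂ} {ρ : ℕ → ℝ} {S : Set (Fin k)} {C : ℕ → Set (Fin k)}

/-- points of order four on the circles -/
theorem four_end98 (J : JCh T V ρ S C) (hF : ∀ z, (∃ a b c d, DPt T z a b c d) → FullE T z) {j : ℕ}
    {p : ℂ} (hp : dist p (V (j + 1)) = 1) (h4 : 4 ≤ (T p).ncard) :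
    p = V j ∨ p = V (j + 2) ∨ E98 T (V (j + 1)) p := by
  obtain ⟨⟨a, b, c, d, α, β, -, -, -, -, -, -, -, hends⟩, hF4⟩ := hF _ (J.exD (j + 1))
  have e1 : dist (V j) (V (j + 1)) = 1 := J.rods.unit j
  have e2 : dist (V (j + 2)) (V (j + 1)) = 1 := by
    rw [dist_comm]; exact J.rods.unit (j + 1)
  have k1 := hends _ e1 (by rw [J.pal, J.pal])
  have k2 := hends _ e2 (by rw [J.pal, J.pal])
  rcases hF4 p hp h4 with k3 | k3
  · have k3 := hends p hp k3
    have hne := J.ends_ne169 j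
    rcases k1 with k1 | k1 <;> rcases k2 with k2 | k2
    · exact absurd (k1.trans k2.symm) hne
    · rcases k3 with k3 | k3
      · exact Or.inl (k3.trans k1.symm)
      · exact Or.inr (Or.inl (k3.trans k2.symm))
    · rcases k3 with k3 | k3
      · exact Or.inr (Or.inl (k3.trans k2.symm))
      · exact Or.inl (k3.trans k1.symm)
    · exact absurd (k1.trans k2.symm) hne
  · exact Or.inr (Or.inr k3)

/-- an `E98`-neighbour is not the point of the parity lemma -/
theorem inn98 (J : JCh T V ρ S C) (h : Irr U T)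
    (hmin : ∀ z, 4 ≤ (T z).ncard → ∀ s, s ⊆ T z → s ≠ T z →
      ¬ ∀ᶠ w in 𝓝 z, ∃ i ∈ s, w ∈ U i ∨ (w ∈ XX U ∧ i ∈ Pal U w))
    (hF : ∀ z, (∃ a b c d, DPt T z a b c d) → FullE T z)
    {e f : Fin k} (hcov : ∀ i, i = e ∨ i = f ∨ i ∈ S)
    {i : ℕ} {u : ℂ} {x : Fin k} (hu : dist u (V i) = 1) (E : E98 T (V i) u) (hxe : x ≠ e)
    (hxf : x ≠ f) (hin : InnO T (V i) u x) : False := by
  have hD : ∃ a b c d, DPt T u a b c d := by
    obtain ⟨a, b, c, d, e', f', -, hy, -⟩ := E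
    exact ⟨_, _, _, _, hy⟩
  obtain ⟨p, r, i', j, l, o, O⟩ := E.out h hmin (by rw [dist_comm]; exact hu) (hF u hD).1
  have key : ∀ m, m ∉ T (V i) → m = e ∨ m = f := by
    intro m hm
    rw [J.pal] at hm
    rcases hcov m with h1 | h1 | h1
    · exact Or.inl h1
    · exact Or.inr h1
    · exact absurd h1 hm
  rcases O.inn hin with rfl | rfl
  · rcases key _ O.lz with h1 | h1
    · exact hxe h1
    · exact hxf h1
  · rcases key _ O.oz with h1 | h1
    · exact hxe h1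
    · exact hxf h1

/-- an `E98`-neighbour is no contact point of the point of the parity lemma -/
theorem contact98 (J : JCh T V ρ S C) (h : Irr U T)
    (hmin : ∀ z, 4 ≤ (T z).ncard → ∀ s, s ⊆ T z → s ≠ T z →
      ¬ ∀ᶠ w in 𝓝 z, ∃ i ∈ s, w ∈ U i ∨ (w ∈ XX U ∧ i ∈ Pal U w))
    (hF : ∀ z, (∃ a b c d, DPt T z a b c d) → FullE T z)
    {e f : Fin k} (hSe : e ∉ S) (hSf : f ∉ S) (hcov : ∀ i, i = e ∨ i = f ∨ i ∈ S) (hef : e ≠ f)
    {i j : ℕ} (hj : j = i ∨ j = i + 1 ∨ j = i + 2) {u p : ℂ} (hu : dist u (V (i + 2)) ≤ 1)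
    (he : e ∈ T u) (hf : f ∈ T u) (hpu : dist p u = 1) (hpV : dist p (V (j + 1)) = 1)
    (E : E98 T (V (j + 1)) p) : False := by
  have hD : ∃ a b c d, DPt T p a b c d := by
    obtain ⟨a, b, c, d, e', f', -, hy, -⟩ := E
    exact ⟨_, _, _, _, hy⟩
  obtain ⟨p1, r1, i1, j1, l1, o1, O⟩ := E.out h hmin (by rw [dist_comm]; exact hpV) (hF p hD).1
  obtain ⟨p2, r2, i2, j2, l2, o2, O'⟩ := E.symm.out h hmin hpV (hF _ (J.exD (j + 1))).1
  obtain ⟨hep, hfp⟩ := E.free98 (e := e) (f := f) (by rw [J.pal]; exact hcov) hef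
  have h1 := O.only h (by rw [dist_comm]; exact hpu) hef he hf hep hfp (by rw [J.pal]; exact hSe)
    (by rw [J.pal]; exact hSf)
  have h2 : V (i + 2) = V (j + 1) ∨ V (i + 2) = p2 ∨ V (i + 2) = r2 := by
    rcases hj with rfl | rfl | rfl
    · right
      refine O'.ends _ ?_ (by rw [J.pal, J.pal])
      rw [dist_comm]; exact J.rods.unit (j + 1)
    · exact Or.inl rfl
    · right
      exact O'.ends _ (J.rods.unit (i + 2)) (by rw [J.pal, J.pal])
  have h3 := O.far O' h1 h2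
  linarith

/-- **the point of the parity lemma** -/
theorem good98 (h : Irr U T)
    (hmin : ∀ z, 4 ≤ (T z).ncard → ∀ s, s ⊆ T z → s ≠ T z →
      ¬ ∀ᶠ w in 𝓝 z, ∃ i ∈ s, w ∈ U i ∨ (w ∈ XX U ∧ i ∈ Pal U w))
    (h4 : ∀ z, (T z).ncard ≤ 4) (J : JCh T V ρ S C)
    (hF : ∀ z, (∃ a b c d, DPt T z a b c d) → FullE T z)
    {e f : Fin k} (hef : e ≠ f) (hSe : e ∉ S) (hSf : f ∉ S) (hcov : ∀ i, i = e ∨ i = f ∨ i ∈ S)
    {i : ℕ} {u : ℂ} {x : Fin k} (hu : dist u (V (i + 2)) ≤ 1) (he : e ∈ T u) (hf : f ∈ T u)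
    (hxe : x ≠ e) (hxf : x ≠ f) (hin : InnO T (V (i + 2)) u x)
    (hno : ∀ g, dist g u = 1 → ¬ T g ⊆ {e, f}) :
    ∃ y, y ∈ T u ∧ y ∈ C (i + 1) ∧ y ∈ C (i + 2) ∧ y ∈ C (i + 3) ∧
      (0 < (ρ (i + 1) - ρ i) * (ρ (i + 2) - ρ (i + 1)) → dist u (V (i + 2)) < 1) := by
  have hxu : x ∈ T u := hin.mem h
  obtain ⟨y, hyu, hye, hyf, hy3, hycl⟩ := h.l2_169 hmin he hf hxu hef hxe hxf (h4 u)
    fun hD => (hF u hD).1
  have hyS : y ∈ S := by
    rcases hcov y with h1 | h1 | h1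
    · exact absurd h1 hye
    · exact absurd h1 hyf
    · exact h1
  have hI : InnO T (V (i + 2)) u y := by
    rcases hu.lt_or_eq with h1 | h1
    · exact subset_closure ⟨h1, hyu⟩
    · have h2 : (T u).ncard ≤ 3 := by
        by_contra hcon
        have hD : ∃ a b c d, DPt T (V (i + 2)) a b c d := by
          obtain ⟨a, b, c, d, -, h3⟩ := J.dpt (i + 2)
          exact ⟨a, b, c, d, h3⟩
        rcases (hF _ hD).2 u h1 (by omega) with h3 | h3
        · rw [J.pal] at h3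
          exact hSe (h3 ▸ he)
        · exact J.inn98 h hmin hF hcov h1 h3 hxe hxf hin
      rw [hy3 h2]
      exact hin
  obtain ⟨c1, c2, c3, c4, -⟩ := J.common' h hSe he hu hyS hyu hI (by
    intro j hj hyC p hpu hpV hp1 hp2
    by_contra hcon
    have hp3 : (T p).ncard ≤ 3 := by
      by_contra hc
      rcases J.four_end98 hF hpV (by omega) with h1 | h1 | h1
      · exact hp1 h1
      · exact hp2 h1
      · exact J.contact98 h hmin hF hSe hSf hcov hef hj hu he hf hpu hpV h1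
    have hmid : u + V (j + 1) ≠ 2 * p := by
      intro h1
      rcases hj with rfl | rfl | rfl
      · refine hp2 (mid169 hu ?_ hpV h1).symm
        rw [dist_comm]; exact J.rods.unit (j + 1)
      · have h2 : u - V (i + 1 + 1) = 2 * (p - V (i + 1 + 1)) := by linear_combination h1
        have h3 : dist u (V (i + 1 + 1)) = 2 := by
          rw [dist_eq_norm, h2, norm_mul, ← dist_eq_norm, hpV, mul_one]; norm_num
        have h4 : dist u (V (i + 1 + 1)) ≤ 1 := hu
        linarith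
      · refine hp1 (mid169 hu ?_ hpV h1).symm
        exact J.rods.unit (i + 2)
    obtain ⟨k1, k2⟩ := h.l1_169 (z := V (j + 1)) (by rw [J.pal]; exact hcov) he hf hef hyu
      (by rw [J.pal]; exact hyS) (by rw [J.pal]; exact hSe) (by rw [J.pal]; exact hSf) hp3 hpu hpV
      hmid (fun g hg => hno g hg.1 (by rw [hg.mem])) hcon
    obtain ⟨k3, k4⟩ := hycl p k1
    rcases k2 with k2 | k2
    · exact k3 k2
    · exact k4 k2)
  exact ⟨y, hyu, c1, c2, c3, c4⟩

/-- **no J-chains** -/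
theorem false98 (J : JCh T V ρ S C) (h : Irr U T)
    (hmin : ∀ z, 4 ≤ (T z).ncard → ∀ s, s ⊆ T z → s ≠ T z →
      ¬ ∀ᶠ w in 𝓝 z, ∃ i ∈ s, w ∈ U i ∨ (w ∈ XX U ∧ i ∈ Pal U w))
    (h4 : ∀ z, (T z).ncard ≤ 4)
    (hF : ∀ z, (∃ a b c d, DPt T z a b c d) → FullE T z)
    {e f : Fin k} (hef : e ≠ f) (hSe : e ∉ S) (hSf : f ∉ S) (hcov : ∀ i, i = e ∨ i = f ∨ i ∈ S)
    (hE : ∀ R : ℝ, (range V ∩ closedBall 0 R).Finite)
    (hPar : ∀ i, Par T (V (i + 2)) e f) : False := by
  obtain ⟨I, O, hIO⟩ := J.sides h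
  have hS : JSd U V ρ C I O := ⟨fun i => (hIO i).1, fun i => (hIO i).2.1, fun i => (hIO i).2.2⟩
  -- points with `e`, `f` on the circles
  have hO : ∀ i u, dist u (V (i + 2)) = 1 → e ∈ T u → f ∈ T u → ∀ g, dist g u = 1 →
      ¬ T g ⊆ {e, f} := by
    intro i u hu he hf g hg hgT
    by_cases h3 : (T u).ncard ≤ 3
    · refine h.not_sub hg h3 fun m hm => ?_
      rcases hgT hm with rfl | h9
      · exact he
      · rw [mem_singleton_iff] at h9; subst h9; exact hf
    · rcases (hF _ (J.exD (i + 2))).2 u hu (by omega) with h3 | h3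
      · rw [J.pal] at h3
        exact hSe (h3 ▸ he)
      · exact E98.no_ef98 h hmin h3 hef (by rw [J.pal]; exact hSe) (by rw [J.pal]; exact hSf) he hf
          hg hgT
  have hty : ∀ i, (0 < (ρ (i + 1) - ρ i) * (ρ (i + 2) - ρ (i + 1)) ↔
      0 < (ρ (i + 2) - ρ (i + 1)) * (ρ (i + 3) - ρ (i + 2))) := by
    intro i
    obtain ⟨u, x, hu, he, hf, hxe, hxf, hin, hno⟩ := h.par98 (hPar i) (hO i) h.closed h.ne
      (fun q _ => rfl) (fun w hw => hw) fun w hw => hw
    obtain ⟨y, -, c1, c2, c3, -⟩ := J.good98 h hmin h4 hF hef hSe hSf hcov hu he hf hxe hxf hin hno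
    exact J.same_type169 h hS c1 c2 c3
  by_cases h0 : 0 < (ρ (0 + 1) - ρ 0) * (ρ (0 + 2) - ρ (0 + 1))
  · -- constant orientation
    have hst : ∀ i, 0 < (ρ (i + 1) - ρ i) * (ρ (i + 2) - ρ (i + 1)) := by
      intro i
      induction i with
      | zero => exact h0
      | succ i ih => exact (hty i).1 ih
    have hI : ∀ i, I i = I 0 := by
      intro i
      induction i with
      | zero => rfl
      | succ i ih => exact (J.junction_stay h hS (hst i)).1.trans ih
    have hIC : ∀ i, I 0 ∈ C (i + 1) := by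
      intro i
      rw [hS.pair i, ← hI i]; simp
    have hfin := J.finite h hIC hE
    have hW : (evV V).Finite := hfin.subset (by rintro w ⟨j, -, rfl⟩; exact ⟨j, rfl⟩)
    have haS : I 0 ∈ S := J.C_sub 1 (hIC 0)
    obtain ⟨u, x, hu, he, hf, hxT, hxe, hxf, hin, ⟨w, ⟨j, hj, rfl⟩, hw⟩, hno⟩ :=
      h.par_fill98 (a := I 0) (z := V 2) (W := evV V) (Z := odΓ V ρ) hW ⟨2, by decide, rfl⟩
        (hPar 0) (hO 0) (fun z hz hz1 => J.stay_bd h hst hIC hfin hz hz1)
        (fun y hy => ⟨J.odΓ_mem h hIC hy, fun h1 => hSe (J.odΓ_sub hy h1)⟩)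
        (fun h1 => hSe (h1 ▸ haS)) (fun h1 => hSf (h1 ▸ haS))
    obtain ⟨y, hyT, c1, c2, c3, c4⟩ :=
      J.good98 h hmin h4 hF hef hSe hSf hcov (i := 0) hu he hf hxe hxf hin hno
    rw [hS.pair 0] at c1
    rw [hS.pair 1] at c2
    have hne := (J.junction_stay h hS (hst 0)).2
    have hx : y = I 0 := by
      rcases c1 with h4 | h4
      · exact h4
      · rw [mem_singleton_iff] at h4
        rcases c2 with h5 | h5
        · exact h5.trans (hI 1)
        · rw [mem_singleton_iff] at h5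
          exact absurd (h5.symm.trans h4) hne
    subst hx
    have h5 := h.curve_in169 J.preconn_evΓ (fun w hw => J.evΓ_mem h hIC hw) hyT
      (J.ev_mem_Γ (j := 2) (by decide)) (by rw [dist_comm]; exact c4 (hst 0)) (J.ev_mem_Γ hj)
    rw [dist_comm] at h5
    linarith
  · -- alternating orientation
    have h0' : (ρ (0 + 1) - ρ 0) * (ρ (0 + 2) - ρ (0 + 1)) < 0 :=
      lt_of_le_of_ne (not_lt.1 h0) (J.ori_ne 0)
    have hsw : ∀ i, (ρ (i + 1) - ρ i) * (ρ (i + 2) - ρ (i + 1)) < 0 := by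
      intro i
      induction i with
      | zero => exact h0'
      | succ i ih =>
        refine lt_of_le_of_ne (not_lt.1 fun h1 => ?_) (J.ori_ne (i + 1))
        exact absurd ((hty i).2 h1) (not_lt.2 ih.le)
    have hO' : ∀ i, O i = O 0 := by
      intro i
      induction i with
      | zero => rfl
      | succ i ih => exact (J.junction_switch h hS (hsw i)).1.trans ih
    exact JCh.switch h J (x := O 0) (fun i => by rw [hS.pair i, ← hO' i]; simp) hE hsw


end JCh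

end Vale.Agent.P032.Six
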