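import Vale.Agent.P032.H169.ChainB

/-!
# P032: the corners at a full two-pair point

`Vx98 U T v p r i j l o` : `p`, `r` are two points of `S(v)` with the palette `{i, j, l, o}` of `v`, not
on a line with `v`; near `v` the inside of `S(p)` carries `i, j`, the outside `l, o`, the inside of
`S(r)` carries `i, l`, the outside `j, o`.

`Vx98.in_pair` : a point `y` of `S(v)` with the colours `i, j` is `p`, `r` or `2 v - p`.
`Vx98.out_pair` : a point `y` of `S(v)` with the colours `l, o` is `p` or `r`.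
`Full.vx` : full two-pair points.
-/

open Set Filter Topology Metric

noncomputable section

namespace Vale.Agent.P032.Six

variable {k : ℕ} {U : Fin k → Set ℂ} {T : ℂ → Set (Fin k)}

/-- the four sectors at `v` -/
structure Vx98 (T : ℂ → Set (Fin k)) (v p r : ℂ) (i j l o : Fin k) : Prop where
  hp : dist v p = 1
  hr : dist v r = 1
  ne : p ≠ r
  ne2 : p + r ≠ 2 * v
  Tp : T p = T v
  Tr : T r = T v
  ij : i ≠ j
  il : i ≠ l
  io : i ≠ o
  jl : j ≠ l
  jo : j ≠ o
  lo : l ≠ o
  pal : T v = {i, j, l, o}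
  near : ∀ᶠ x in 𝓝 v, (dist x p < 1 → T x ⊆ {i, j}) ∧ (1 < dist x p → T x ⊆ {l, o}) ∧
    (dist x r < 1 → T x ⊆ {i, l}) ∧ (1 < dist x r → T x ⊆ {j, o})

theorem Vx98.symm {v p r : ℂ} {i j l o : Fin k} (h : Vx98 T v p r i j l o) : Vx98 T v r p i l j o := by
  refine ⟨h.hr, h.hp, h.ne.symm, ?_, h.Tr, h.Tp, h.il, h.ij, h.io, h.jl.symm, h.lo, h.jo, ?_, ?_⟩
  · rw [add_comm]; exact h.ne2
  · rw [h.pal]; ext x; simp only [mem_insert_iff, mem_singleton_iff]; tauto
  · filter_upwards [h.near] with x hx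
    exact ⟨hx.2.2.1, hx.2.2.2, hx.1, hx.2.1⟩

/-- near a common point two different circles have no other common points -/
theorem off_circle98 {v y r : ℂ} (hy : dist v y = 1) (hr : dist v r = 1) (hyr : y ≠ r) :
    ∀ᶠ x in 𝓝 v, x ≠ v → dist x y = 1 → dist x r ≠ 1 := by
  have h1 : ∀ᶠ x in 𝓝 v, x ≠ v → x ≠ y + r - v := by
    by_cases h2 : v = y + r - v
    · filter_upwards with x hx
      rwa [← h2]
    · filter_upwards [isOpen_ne.mem_nhds h2] with x hx _
      exact hx
  filter_upwards [h1] with x hx hxv hxy hxr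
  rcases circ_two715 hyr hxy hxr (by rw [dist_comm]; exact hy) (by rw [dist_comm]; exact hr)
    with h3 | h3
  · exact hxv h3
  · exact hx hxv h3

theorem tendsto_cis98 {y v : ℂ} {t0 : ℝ} (e : y + cis t0 = v) :
    Tendsto (fun t => y + cis t) (𝓝 t0) (𝓝 v) := by
  rw [← e]
  exact (continuous_const.add continuous_cis : Continuous fun t => y + cis t).tendsto t0

/-- points of `S(y)` near `v` on both sides of `S(p)` -/
theorem both_sides98 {v y p : ℂ} (hy : dist v y = 1) (hp : dist v p = 1) (hyp : y ≠ p)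
    (hyp2 : y + p ≠ 2 * v) {P : ℂ → Prop} (hP : ∀ᶠ x in 𝓝 v, P x) :
    (∃ x, P x ∧ dist x y = 1 ∧ dist x p < 1) ∧ ∃ x, P x ∧ dist x y = 1 ∧ 1 < dist x p := by
  obtain ⟨t0, ht0⟩ := exists_cis (u := v - y) (by rw [← dist_eq_norm]; exact hy)
  have e1 : y + cis t0 = v := by rw [← ht0]; ring
  have hcr : cr (cis t0) (y + cis t0 - p) ≠ 0 := by
    rw [e1, ← ht0]
    exact cr_ne hy hp hyp hyp2
  have h0 : dist (y + cis t0) p = 1 := by rw [e1]; exact hp
  have hcont : Tendsto (fun t => y + cis t) (𝓝 t0) (𝓝 v) := tendsto_cis98 e1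
  have h1 : ∀ᶠ t in 𝓝 t0, P (y + cis t) := hcont.eventually hP
  rw [Metric.eventually_nhds_iff] at h1
  obtain ⟨η, hη, h1⟩ := h1
  obtain ⟨t1, t2, a1, a2, a3, a4⟩ := circle_signs h0 hcr hη
  exact ⟨⟨_, h1 (by rw [Real.dist_eq]; exact a1), dist_add_cis _ _, a3⟩,
    ⟨_, h1 (by rw [Real.dist_eq]; exact a2), dist_add_cis _ _, a4⟩⟩

namespace Vx98

variable {v p r : ℂ} {i j l o : Fin k}

/-- a point of the palette of a point of `S(y)` is no single colour of `y` -/
theorem _root_.Vale.Agent.P032.Six.Irr.not_single98 (h : Irr U T) {x y : ℂ} {m : Fin k}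
    (hx : dist x y = 1) (hT : T x ⊆ {m}) : m ∉ T y := fun hm =>
  h.mx.notMem' (h.mem_of_single (x := x) (i := m) fun n hn => hT hn) hx (h.sub y hm)

/-- near `v`, inside `S(p)` and off `S(r)`, the palette is one of the colours `i`, `j` -/
theorem single_in (V : Vx98 T v p r i j l o) : ∀ᶠ x in 𝓝 v, dist x p < 1 → dist x r ≠ 1 →
    T x ⊆ {i} ∨ T x ⊆ {j} := by
  filter_upwards [V.near] with x hx h1 h2
  rcases lt_or_gt_of_ne h2 with h3 | h3
  · left
    intro n hn
    rcases hx.1 h1 hn with rfl | h4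
    · rfl
    · rw [mem_singleton_iff] at h4
      subst h4
      rcases hx.2.2.1 h3 hn with h5 | h5
      · exact absurd h5.symm V.ij
      · rw [mem_singleton_iff] at h5
        exact absurd h5 V.jl
  · right
    intro n hn
    rcases hx.1 h1 hn with rfl | h4
    · rcases hx.2.2.2 h3 hn with h5 | h5
      · exact absurd h5 V.ij
      · rw [mem_singleton_iff] at h5
        exact absurd h5 V.io
    · exact h4

/-- near `v`, outside `S(p)` and off `S(r)`, the palette is one of the colours `l`, `o` -/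
theorem single_out (V : Vx98 T v p r i j l o) : ∀ᶠ x in 𝓝 v, 1 < dist x p → dist x r ≠ 1 →
    T x ⊆ {l} ∨ T x ⊆ {o} := by
  filter_upwards [V.near] with x hx h1 h2
  rcases lt_or_gt_of_ne h2 with h3 | h3
  · left
    intro n hn
    rcases hx.2.1 h1 hn with rfl | h4
    · rfl
    · rw [mem_singleton_iff] at h4
      subst h4
      rcases hx.2.2.1 h3 hn with h5 | h5
      · exact absurd h5.symm V.io
      · rw [mem_singleton_iff] at h5
        exact absurd h5.symm V.lo
  · right
    intro n hn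
    rcases hx.2.1 h1 hn with rfl | h4
    · rcases hx.2.2.2 h3 hn with h5 | h5
      · exact absurd h5.symm V.jl
      · rw [mem_singleton_iff] at h5
        exact absurd h5 V.lo
    · exact h4

/-- **a point of `S(v)` with both colours of the inside of `S(p)`** -/
theorem in_pair (V : Vx98 T v p r i j l o) (h : Irr U T) {y : ℂ} (hy : dist v y = 1) (hi : i ∈ T y)
    (hj : j ∈ T y) : y = p ∨ y = r ∨ y + p = 2 * v := by
  by_contra hcon
  push Not at hcon
  obtain ⟨h1, h2, h3⟩ := hcon
  obtain ⟨⟨x, ⟨h4, h5⟩, h6, h7⟩, -⟩ := both_sides98 hy V.hp h1 h3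
    (V.single_in.and (off_circle98 hy V.hr h2))
  have hxv : x ≠ v := fun h8 => by rw [h8, V.hp] at h7; exact lt_irrefl _ h7
  rcases h4 h7 (h5 hxv h6) with h8 | h8
  · exact h.not_single98 h6 h8 hi
  · exact h.not_single98 h6 h8 hj

/-- **a point of `S(v)` with both colours of the outside of `S(p)`** -/
theorem out_pair (V : Vx98 T v p r i j l o) (h : Irr U T) {y : ℂ} (hy : dist v y = 1) (hl : l ∈ T y)
    (ho : o ∈ T y) : y = p ∨ y = r := by
  by_contra hcon
  push Not at hcon
  obtain ⟨h1, h2⟩ := hcon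
  have hsing := V.single_out.and (off_circle98 hy V.hr h2)
  have key : ∀ x, ((1 < dist x p → dist x r ≠ 1 → T x ⊆ {l} ∨ T x ⊆ {o}) ∧
      (x ≠ v → dist x y = 1 → dist x r ≠ 1)) → dist x y = 1 → 1 < dist x p → False := by
    rintro x ⟨h4, h5⟩ h6 h7
    have hxv : x ≠ v := fun h8 => by rw [h8, V.hp] at h7; exact lt_irrefl _ h7
    rcases h4 h7 (h5 hxv h6) with h8 | h8
    · exact h.not_single98 h6 h8 hl
    · exact h.not_single98 h6 h8 ho
  by_cases h3 : y + p = 2 * v
  · -- the circle `S(y)` is outside `S(p)`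
    obtain ⟨t0, ht0⟩ := exists_cis (u := v - y) (by rw [← dist_eq_norm]; exact hy)
    have e1 : y + cis t0 = v := by rw [← ht0]; ring
    have hcont : Tendsto (fun t => y + cis t) (𝓝 t0) (𝓝 v) := tendsto_cis98 e1
    have h4 := hcont.eventually hsing
    rw [Metric.eventually_nhds_iff] at h4
    obtain ⟨η, hη, h4⟩ := h4
    set s := min η 1 / 2 with hs
    have hs0 : 0 < s := by positivity
    have hsη : s < η := by
      have := min_le_left η 1
      rw [hs]; linarith
    have hs1 : s < 1 := by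
      have := min_le_right η 1
      rw [hs]; linarith
    have h5 := h4 (y := t0 + s) (by rw [Real.dist_eq, add_sub_cancel_left, abs_of_pos hs0]; exact hsη)
    refine key _ h5 (dist_add_cis _ _) ?_
    by_contra h6
    push Not at h6
    have h7 : y + cis (t0 + s) = v := by
      refine mid169 (u := p) (c := y) (p := v) (by rw [dist_comm]; exact h6) (dist_add_cis _ _) hy ?_
      rw [add_comm]; exact h3
    have h8 : cis (t0 + s) = cis t0 := by
      rw [← e1] at h7
      exact add_left_cancel h7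
    have h9 := cis_inj715 h8 (by
      rw [add_sub_cancel_left, abs_of_pos hs0]
      linarith [Real.pi_gt_three])
    linarith
  · obtain ⟨-, x, hx, h6, h7⟩ := both_sides98 hy V.hp h1 h3 hsing
    exact key x hx h6 h7

end Vx98

/-- **the corners at a full two-pair point** -/
theorem Full.vx {v : ℂ} (hv : Full T v) (h : Irr U T) :
    ∃ (a b c d : Fin k) (α β : ℝ) (i j l o : Fin k), DPt T v a b c d ∧ β ≠ α ∧
      |β - α| ≤ Real.pi / 3 ∧ Vx98 T v (v + cis α) (v + cis β) i j l o ∧
      (∀ q, dist q v = 1 → T q = T v → q = v + cis α ∨ q = v + cis β) ∧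
      ((i = a ∧ o = b) ∨ (i = b ∧ o = a)) := by
  obtain ⟨a, b, c, d, α, β, hD, hne, hle, hα, hβ, harc, honly, hends⟩ := hv
  have hpi := Real.pi_pos
  have h2 : ∃ a b c d, DPt T v a b c d := ⟨a, b, c, d, hD⟩
  have dα := dist_add_cis v α
  have dβ := dist_add_cis v β
  have hcr0 : cr (cis α) (cis β) = Real.sin (β - α) := by
    unfold cr
    rw [cis_re, cis_im, cis_re, cis_im, Real.sin_sub]
    ring
  have hsin : Real.sin (β - α) ≠ 0 := by
    rcases lt_or_gt_of_ne hne with h3 | h3
    · have h4 : Real.sin (β - α) < 0 := by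
        apply Real.sin_neg_of_neg_of_neg_pi_lt
        · linarith
        · have := neg_abs_le (β - α)
          linarith
      exact h4.ne
    · have h4 : 0 < Real.sin (β - α) := by
        apply Real.sin_pos_of_pos_of_lt_pi
        · linarith
        · have := le_abs_self (β - α)
          linarith
      exact h4.ne'
  have hcr : cr (v + cis α - v) (v + cis β - v) ≠ 0 := by
    rw [add_sub_cancel_left, add_sub_cancel_left, hcr0]
    exact hsin
  -- the middle point
  set θ := (α + β) / 2 with hθ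
  have hθm : θ ∈ uIoo α β := by
    unfold uIoo
    rcases lt_or_gt_of_ne hne with h3 | h3
    · rw [inf_eq_right.2 h3.le, sup_eq_left.2 h3.le]
      constructor <;> rw [hθ] <;> linarith
    · rw [inf_eq_left.2 h3.le, sup_eq_right.2 h3.le]
      constructor <;> rw [hθ] <;> linarith
  set c0 := Real.cos ((β - α) / 2) with hc0
  have hc0p : 0 < c0 := by
    apply Real.cos_pos_of_mem_Ioo
    have h3 := neg_abs_le (β - α)
    have h4 := le_abs_self (β - α)
    constructor <;> linarith
  have hsum : cis α + cis β = (2 * c0 : ℝ) * cis θ := by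
    have e1 : α = θ - (β - α) / 2 := by rw [hθ]; ring
    have e2 : β = θ + (β - α) / 2 := by rw [hθ]; ring
    have c1 : Real.cos α = Real.cos (θ - (β - α) / 2) := by rw [← e1]
    have c2 : Real.cos β = Real.cos (θ + (β - α) / 2) := by rw [← e2]
    have s1 : Real.sin α = Real.sin (θ - (β - α) / 2) := by rw [← e1]
    have s2 : Real.sin β = Real.sin (θ + (β - α) / 2) := by rw [← e2]
    apply Complex.ext
    · rw [Complex.add_re, Complex.re_ofReal_mul, cis_re, cis_re, cis_re, c1, c2, Real.cos_sub,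
        Real.cos_add, hc0]
      ring
    · rw [Complex.add_im, Complex.im_ofReal_mul, cis_im, cis_im, cis_im, s1, s2, Real.sin_sub,
        Real.sin_add, hc0]
      ring
  have hg : v + cis θ - v = ((1 / (2 * c0) : ℝ) : ℂ) * (v + cis α - v) +
      ((1 / (2 * c0) : ℝ) : ℂ) * (v + cis β - v) := by
    rw [add_sub_cancel_left, add_sub_cancel_left, add_sub_cancel_left, ← mul_add, hsum, ← mul_assoc,
      ← Complex.ofReal_mul, show 1 / (2 * c0) * (2 * c0) = 1 by field_simp, Complex.ofReal_one,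
      one_mul]
  have ha : a ∈ T v := by rw [hD.pal]; simp
  have hb : b ∈ T v := by rw [hD.pal]; simp
  have hl0 : 0 < 1 / (2 * c0) := by positivity
  have hga := h.arc_of_eq hD.ab ha hb (dist_add_cis v θ) (harc θ hθm)
  have hvp : dist v (v + cis α) = 1 := by rw [dist_comm]; exact dα
  have hvr : dist v (v + cis β) = 1 := by rw [dist_comm]; exact dβ
  have hDp := h.dpt_of_eq169 h2 dα hα
  have hDr := h.dpt_of_eq169 h2 dβ hβ
  have hne1 : v + cis α ≠ v + cis β := by
    intro h3
    apply hsin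
    rw [← hcr0, add_left_cancel h3]
    unfold cr; ring
  have hne2 : v + cis α + (v + cis β) ≠ 2 * v := by
    intro h3
    have h4 : cis β = -cis α := by linear_combination h3
    apply hsin
    rw [← hcr0, h4]
    unfold cr
    rw [Complex.neg_im, Complex.neg_re]; ring
  rcases h.sides hD (dist_add_cis v θ) with hs | hs
  · obtain ⟨j, l, n1, n2, n3, n4, n5, n6, hT, hx⟩ := h.vertex169 hDp hDr hvp hvr hα.symm hβ.symm hcr
      hl0 hl0 hg hga hs ha hb
    exact ⟨a, b, c, d, α, β, a, j, l, b, hD, hne, hle, ⟨hvp, hvr, hne1, hne2, hα, hβ, n1, n2, n3, n4,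
      n5, n6, hT, hx⟩, hends, Or.inl ⟨rfl, rfl⟩⟩
  · rw [pair_comm] at hga
    obtain ⟨j, l, n1, n2, n3, n4, n5, n6, hT, hx⟩ := h.vertex169 hDp hDr hvp hvr hα.symm hβ.symm hcr
      hl0 hl0 hg hga hs hb ha
    exact ⟨a, b, c, d, α, β, b, j, l, a, hD, hne, hle, ⟨hvp, hvr, hne1, hne2, hα, hβ, n1, n2, n3, n4,
      n5, n6, hT, hx⟩, hends, Or.inr ⟨rfl, rfl⟩⟩

end Vale.Agent.P032.Six
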