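import Vale.Agent.P032.H460.MFlip
import Vale.Agent.P032.H862.HarmS
import Vale.Agent.P032.H538.H3
import Vale.Agent.P032.H594.HarmA

/-!
# P032: no harmless point on the circle of a point whose two pairs both have plain ends

`rowHarm_98 : RowHarm98` from the cases of the palette (`harm_cases594`), the ends `harmT862`,
`harmT2_862`, `harmE862`, `h3_all538` and the real flips `excE460`, `excK460`.
-/

open Set Filter Topology Metric

noncomputable section

namespace Vale.Agent.P032.H98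

open Vale.Agent.P032.Six Vale.Agent.P032.S5.H767 Vale.Agent.P032.H383 Vale.Agent.P032.H800

variable {U : Fin 6 → Set ℂ} {T : ℂ → Set (Fin 6)} {V y : ℂ} {a b c d e f : Fin 6}
  {A : Set (Fin 6)}

theorem harm_ab98 (X : XC U T) (M : Md98 T V a b c d e f) (hy : dist y V = 1)
    (hH : Six.Harm T y A) (hT : T y = {a, b, e, f}) : False := by
  obtain ⟨⟨ab, ac, ad, ae, af⟩, ⟨bc, bd, be, bf⟩, ⟨cd, ce, cf⟩, ⟨de, df⟩, ef⟩ := nd_all353 M.nd
  by_cases he : e ∈ A
  · exact H862.harmT862 X M hy hH hT he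
  · refine H862.harmT2_862 X M hy hH hT he (H460.excK460 X M hy hH.card.ge fun hcl => ?_)
    have h1 := sub_of_closure X.df.irr hcl (Or.inl rfl : c ∈ ({c, d} : Set (Fin 6)))
    rw [hT] at h1
    rcases h1 with h1 | h1 | h1 | h1
    exacts [ac h1.symm, bc h1.symm, ce h1, cf h1]

theorem harm_ac98 (X : XC U T) (M : Md98 T V a b c d e f) (hy : dist y V = 1)
    (hH : Six.Harm T y A) (hT : T y = {a, c, e, f}) : False := by
  obtain ⟨⟨ab, ac, ad, ae, af⟩, ⟨bc, bd, be, bf⟩, ⟨cd, ce, cf⟩, ⟨de, df⟩, ef⟩ := nd_all353 M.nd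
  by_cases hA : A = {e, f}
  · subst hA
    have hV4 : 4 ≤ (T V).ncard := M.dpt.ncard.ge
    have hVy : dist V y = 1 := by rw [dist_comm]; exact hy
    obtain ⟨y2, o1⟩ := H273.second273 hy hH.card.ge fun y1 y2 y3 => X.n3 V y1 y2 y3 hV4
    obtain ⟨y1, o2⟩ := H273.second273 hVy hV4 fun y1 y2 y3 => X.n3 y y1 y2 y3 hH.card.ge
    exact H538.h3_all538 X.df.irr M.dpt M.nd hy hH hT o1 o2
  · refine H862.harmE862 X M hy hH hA (by rw [hT]; simp) (by rw [hT]; simp)
      (H460.excE460 X M hy hH.card.ge (fun hcl => ?_) fun hcl => ?_)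
    · have h1 := sub_of_closure X.df.irr hcl (Or.inr rfl : b ∈ ({a, b} : Set (Fin 6)))
      rw [hT] at h1
      rcases h1 with h1 | h1 | h1 | h1
      exacts [ab h1.symm, bc h1, be h1, bf h1]
    · have h1 := sub_of_closure X.df.irr hcl (Or.inr rfl : d ∈ ({c, d} : Set (Fin 6)))
      rw [hT] at h1
      rcases h1 with h1 | h1 | h1 | h1
      exacts [ad h1.symm, cd h1.symm, de h1, df h1]

/-- **row HA** -/
theorem rowHarm_98 : RowHarm98 := by
  intro U T X V a b c d e f M y hy A hH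
  rcases H594.harm_cases594 X M hy hH with (h | h) | (h | h) | (h | h)
  · exact harm_ab98 X M hy hH h
  · exact harm_ab98 X M.swap hy hH h
  · exact harm_ac98 X M hy hH h
  · exact harm_ac98 X M.swap34 hy hH h
  · exact harm_ac98 X M.swap12 hy hH h
  · exact harm_ac98 X M.swap12.swap34 hy hH h

end Vale.Agent.P032.H98
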