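import Vale.Agent.P032.H98.ChainE
import Vale.Agent.P032.S5.H11.TopD

/-!
# P032: no frame in which all two-pair points are `FullE`
-/

open Set Filter Topology Metric

noncomputable section

namespace Vale.Agent.P032.Six

/-- **no frame in which all two-pair points are `FullE`** -/
theorem no_df_fullE {U : Fin 6 → Set ℂ} {T : ℂ → Set (Fin 6)} (h : DF U T)
    (hF : ∀ z, (∃ a b c d, DPt T z a b c d) → FullE T z) : False := by
  obtain ⟨z, a, b, c, d, hD, y, hy, hy4⟩ := h.irr.exists_dpair' h.mn h.le4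
  obtain ⟨V, ρ, S, C, -, J⟩ := exists_JCh h.irr (fun z hz _ => (hF z hz).1)
    ⟨a, b, c, d, hD⟩ hy hy4.ge
  have hS4 : S.ncard = 4 := J.S_card
  have hc2 : Sᶜ.ncard = 2 := by
    have h1 := Set.ncard_add_ncard_compl S
    rw [Nat.card_eq_fintype_card, Fintype.card_fin] at h1
    omega
  obtain ⟨e, f, hef, hSc⟩ := Set.ncard_eq_two.1 hc2
  have hSe : e ∉ S := by
    have : e ∈ Sᶜ := by rw [hSc]; simp
    exact this
  have hSf : f ∉ S := by
    have : f ∈ Sᶜ := by rw [hSc]; simp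
    exact this
  refine J.false98 h.irr h.mn h.le4 hF hef hSe hSf (fun i => ?_) (fun R => ?_)
    fun i => H98.par_fullE h.irr h.mn (hF _ (J.exD _)) (fun y _ E => ?_) hef
      (by rw [J.pal]; exact hSe) (by rw [J.pal]; exact hSf)
  · by_cases hi : i ∈ S
    · exact Or.inr (Or.inr hi)
    · have h1 : i ∈ Sᶜ := hi
      rw [hSc] at h1
      rcases h1 with h1 | h1
      · exact Or.inl h1
      · exact Or.inr (Or.inl h1)
  · refine (h.fin 0 R).subset ?_
    rintro _ ⟨⟨i, rfl⟩, h1⟩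
    exact ⟨mem_closedBall.1 h1, J.exD i⟩
  · obtain ⟨a, b, c, d, e', f', -, hy, -⟩ := E
    exact (hF y ⟨_, _, _, _, hy⟩).1

end Vale.Agent.P032.Six
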